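import Vale.Agent.P292E.BdC

/-! The estimate for the Cauchy-Riemann system. -/

open scoped ContDiff Topology FourierTransform
open Set Filter MeasureTheory Metric

noncomputable section

namespace Vale.Agent.P292E

variable {N : ℕ}

/-- matrix entries times `σ` -/
def sysL (σ : ℂ) (l p : Fin N) : (V N →L[ℝ] V N) →L[ℝ] ℂ :=
  σ • (Complex.ofRealCLM ∘L EuclideanSpace.proj p ∘L ContinuousLinearMap.apply ℝ (V N) (ee l))

theorem sysL_apply (σ : ℂ) (l p : Fin N) (T : V N →L[ℝ] V N) :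
    sysL σ l p T = σ * (T (ee l) p : ℝ) := rfl

theorem sysL_norm {σ : ℂ} (hσ : ‖σ‖ = 1) (l p : Fin N) : ‖sysL σ l p‖ ≤ 1 := by
  refine ContinuousLinearMap.opNorm_le_bound _ zero_le_one fun T => ?_
  rw [sysL_apply, norm_mul, hσ, Complex.norm_real, one_mul, one_mul]
  refine (PiLp.norm_apply_le _ p).trans ?_
  simpa [ee] using T.le_opNorm (ee l)

/-- the coefficients of the vector fields -/
def sysZ (σ : ℂ) (T : V N →L[ℝ] V N) (l p : Fin N) : ℂ := (if l = p then 1 else 0) + sysL σ l p T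

theorem sys_sum (σ : ℂ) (T : V N →L[ℝ] V N) (l : Fin N) (y : Fin N → ℂ) :
    ∑ p, sysZ σ T l p * y p = y l + σ * ∑ p, (T (ee l) p : ℝ) * y p := by
  simp only [sysZ, sysL_apply, add_mul, Finset.sum_add_distrib, ite_mul, one_mul, zero_mul,
    Finset.sum_ite_eq, Finset.mem_univ, if_true, Finset.mul_sum, mul_assoc]

theorem sys_fderiv (v : V N → ℂ) (x w : V N) : fderiv ℝ v x w = ∑ p, (w p : ℝ) * pd p v x := by
  conv_lhs => rw [← (EuclideanSpace.basisFun (Fin N) ℝ).sum_repr w, map_sum]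
  refine Finset.sum_congr rfl fun p _ => ?_
  rw [map_smul, Complex.real_smul, EuclideanSpace.basisFun_repr, EuclideanSpace.basisFun_apply]
  rfl

theorem sys_symb (T : V N →L[ℝ] V N) (ξ : V N) : 1 * ‖ξ‖ ^ 2 ≤
    symb (fun p q => ∑ l, sysZ Complex.I T l p * sysZ (-Complex.I) T l q) ξ := by
  have h1 : ∑ p, ∑ q, (∑ l, sysZ Complex.I T l p * sysZ (-Complex.I) T l q) * ξ p * ξ q =
      ∑ l, (∑ p, sysZ Complex.I T l p * ξ p) * ∑ q, sysZ (-Complex.I) T l q * ξ q := by
    simp only [Finset.sum_mul_sum]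
    rw [Finset.sum_comm (γ := Fin N)]
    refine (Finset.sum_comm.trans (Finset.sum_congr rfl fun p _ => ?_)).trans Finset.sum_comm
    refine (Finset.sum_congr rfl fun q _ => ?_).trans Finset.sum_comm
    rw [Finset.sum_mul, Finset.sum_mul]
    exact Finset.sum_congr rfl fun l _ => by ring
  rw [symb, h1, Complex.re_sum, one_mul, EuclideanSpace.real_norm_sq_eq]
  refine Finset.sum_le_sum fun l _ => ?_
  rw [sys_sum, sys_sum]
  have h2 : ∑ p, ((T (ee l) p : ℝ) : ℂ) * (ξ p : ℝ) = ((∑ p, T (ee l) p * ξ p : ℝ) : ℂ) := by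
    push_cast
    rfl
  rw [h2]
  generalize ∑ p, T (ee l) p * ξ p = η
  simp only [Complex.mul_re, Complex.add_re, Complex.add_im, Complex.mul_im, Complex.ofReal_re,
    Complex.ofReal_im, Complex.I_re, Complex.I_im, Complex.neg_re, Complex.neg_im]
  nlinarith [sq_nonneg η]

theorem sys_Z {σ : ℂ} (hσ : ‖σ‖ = 1) {M : ℕ} {K ε : ℝ} {J₀ : V N →L[ℝ] V N}
    {J : V N → V N →L[ℝ] V N} (hK : ‖J₀‖ ≤ K) (hε : 0 ≤ ε) (hε1 : ε ≤ 1)
    (hJ : ContDiffOn ℝ ∞ J (ball 0 3)) (hb : Bd M (fun x => J x - J₀) (ball 0 3) ε) (l p : Fin N) :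
    ContDiffOn ℝ ∞ (fun x => sysZ σ (J x) l p) (ball 0 3) ∧
      Bd M (fun x => sysZ σ (J x) l p - sysZ σ J₀ l p) (ball 0 3) ε ∧
      ‖sysZ σ J₀ l p‖ ≤ |K| + 2 ∧ Bd M (fun x => sysZ σ (J x) l p) (ball 0 3) (|K| + 2) := by
  have h1 : ContDiffOn ℝ ∞ (fun x => sysZ σ (J x) l p) (ball 0 3) :=
    contDiffOn_const.add ((sysL σ l p).contDiff.comp_contDiffOn hJ)
  have h2 : Bd M (fun x => sysZ σ (J x) l p - sysZ σ J₀ l p) (ball 0 3) ε := by
    have h3 := Bd.clm (sysL σ l p) isOpen_ball (hJ.sub contDiffOn_const) hb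
    simp only [sysZ, add_sub_add_left_eq_sub, ← map_sub]
    exact h3.mono le_rfl subset_rfl (mul_le_of_le_one_left hε (sysL_norm hσ l p))
  have h3 : ‖sysZ σ J₀ l p‖ ≤ |K| + 1 := by
    have h4 := (sysL σ l p).le_opNorm J₀
    have h5 := mul_le_of_le_one_left (norm_nonneg J₀) (sysL_norm hσ l p)
    have h6 : ‖(if l = p then 1 else 0 : ℂ)‖ ≤ 1 := by split_ifs <;> simp
    have h7 := norm_add_le (if l = p then 1 else 0 : ℂ) (sysL σ l p J₀)
    have h8 := le_abs_self K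
    rw [sysZ]
    linarith
  refine ⟨h1, h2, by linarith, ?_⟩
  have h4 := Bd.add isOpen_ball (h1.sub contDiffOn_const) contDiffOn_const h2
    (Bd_const M (sysZ σ J₀ l p) _)
  simp only [sub_add_cancel] at h4
  exact h4.mono le_rfl subset_rfl (by linarith)

theorem sys_alg (Z Zb φ2 dZb : Fin N → Fin N → ℂ) (dZ : Fin N → Fin N → Fin N → ℂ)
    (φ1 dv e g : Fin N → ℂ) (v φ : ℂ) (h : ∀ l, ∑ p, Zb l p * dv p + e l * v = g l) :
    v * (∑ p, ∑ q, (∑ l, Zb l p * Z l q) * φ2 p q +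
      ∑ q, (∑ l, (∑ p, (Zb l p * dZ l q p + dZb l p * Z l q) + -(e l * Z l q))) * φ1 q + 0 * φ) =
      (0 * φ + ∑ q, (-∑ l, g l * Z l q) * φ1 q) + ∑ l, ∑ p, ∑ q, (φ2 p q * (Z l q * Zb l p * v) +
        φ1 q * (dZ l q p * Zb l p * v + Z l q * dZb l p * v + Z l q * Zb l p * dv p)) := by
  have h1 : ∑ l, ∑ p, ∑ q, φ2 p q * (Z l q * Zb l p * v) =
      v * ∑ p, ∑ q, (∑ l, Zb l p * Z l q) * φ2 p q := by
    rw [Finset.sum_comm, Finset.mul_sum]
    refine Finset.sum_congr rfl fun p _ => ?_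
    rw [Finset.sum_comm, Finset.mul_sum]
    refine Finset.sum_congr rfl fun q _ => ?_
    rw [Finset.sum_mul, Finset.mul_sum]
    exact Finset.sum_congr rfl fun l _ => by ring
  have h2 : ∑ l, ∑ p, ∑ q,
      φ1 q * (dZ l q p * Zb l p * v + Z l q * dZb l p * v + Z l q * Zb l p * dv p) =
      ∑ q, (v * (∑ l, (∑ p, (Zb l p * dZ l q p + dZb l p * Z l q) + -(e l * Z l q))) * φ1 q +
        (∑ l, g l * Z l q) * φ1 q) := by
    rw [Finset.sum_congr rfl fun l _ => Finset.sum_comm, Finset.sum_comm]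
    refine Finset.sum_congr rfl fun q _ => ?_
    rw [Finset.mul_sum, ← add_mul, ← Finset.sum_add_distrib, Finset.sum_mul]
    refine Finset.sum_congr rfl fun l _ => ?_
    have h3 : ∑ p, φ1 q * (dZ l q p * Zb l p * v + Z l q * dZb l p * v + Z l q * Zb l p * dv p) =
        (v * ∑ p, (Zb l p * dZ l q p + dZb l p * Z l q) + (∑ p, Zb l p * dv p) * Z l q) * φ1 q := by
      rw [Finset.mul_sum, Finset.sum_mul, ← Finset.sum_add_distrib, Finset.sum_mul]
      exact Finset.sum_congr rfl fun p _ => by ring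
    rw [h3, ← h l]
    ring
  simp only [Finset.sum_add_distrib (f := fun q => φ2 _ q * _)]
  rw [Finset.sum_congr rfl fun l _ => Finset.sum_add_distrib, Finset.sum_add_distrib, h1, h2,
    Finset.sum_add_distrib, mul_add, mul_add, Finset.mul_sum _ (fun q => _ * φ1 q)]
  simp only [neg_mul, Finset.sum_neg_distrib, mul_assoc]
  ring

theorem sys_int {s : Set (V N)} {φ : V N → ℂ} (h : Tst s φ) : Integrable φ :=
  h.1.continuous.integrable_of_hasCompactSupport h.2.1

theorem sys_ibp {s : Set (V N)} {φ : V N → ℂ} (h : Tst s φ) (p : Fin N) : ∫ x, pd p φ x = 0 := by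
  have h1 := integral_mul_fderiv_eq_neg_fderiv_mul_of_integrable (μ := volume)
    (f := fun _ : V N => (1 : ℂ)) (g := φ) (v := ee p) (by simp)
    (by simp only [one_mul]; exact sys_int (h.pd p).1) (by simpa using sys_int h)
    (fun _ _ => differentiableAt_const _) fun x _ => h.1.differentiable (by simp) x
  simpa [pd] using h1

theorem sys_pd_mul {f g : V N → ℂ} {x : V N} (hf : DifferentiableAt ℝ f x)
    (hg : DifferentiableAt ℝ g x) (p : Fin N) :
    pd p (fun y => f y * g y) x = pd p f x * g x + f x * pd p g x := by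
  rw [pd, fderiv_fun_mul hf hg]
  simp only [ContinuousLinearMap.add_apply, ContinuousLinearMap.smul_apply, smul_eq_mul, pd]
  ring

theorem sys_weak {Z Zb : Fin N → Fin N → V N → ℂ} {e g : Fin N → V N → ℂ} {v : V N → ℂ}
    (hZ : ∀ l p, ContDiffOn ℝ ∞ (Z l p) (ball 0 3))
    (hZb : ∀ l p, ContDiffOn ℝ ∞ (Zb l p) (ball 0 3)) (hg : ∀ l, ContDiffOn ℝ ∞ (g l) (ball 0 3))
    (hv : ContDiffOn ℝ ∞ v (ball 0 3))
    (h : ∀ l, ∀ x ∈ ball (0 : V N) 3, ∑ p, Zb l p x * pd p v x + e l x * v x = g l x) :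
    Weak (ball 0 3) (fun p q x => ∑ l, Zb l p x * Z l q x)
      (fun q x => ∑ l, (∑ p, (Zb l p x * pd p (Z l q) x + pd p (Zb l p) x * Z l q x) +
        -(e l x * Z l q x))) (fun _ => 0) v (fun _ => 0)
      fun q x => -∑ l, g l x * Z l q x := by
  intro φ hφ
  have hT : ∀ l p q, Tst (ball 0 3) fun y => pd q φ y * (Z l q y * Zb l p y * v y) :=
    fun l p q => cut_contDiff isOpen_ball (hφ.pd q).1 (((hZ l q).mul (hZb l p)).mul hv)
  have hd : ∀ {f : V N → ℂ}, ContDiffOn ℝ ∞ f (ball 0 3) → ∀ x ∈ ball (0 : V N) 3,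
      DifferentiableAt ℝ f x := fun hf x hx =>
    (hf.contDiffAt (isOpen_ball.mem_nhds hx)).differentiableAt (by simp)
  have h1 : ∀ x, v x * Qop (fun p q x => ∑ l, Zb l p x * Z l q x)
      (fun q x => ∑ l, (∑ p, (Zb l p x * pd p (Z l q) x + pd p (Zb l p) x * Z l q x) +
        -(e l x * Z l q x))) (fun _ => 0) φ x =
      (0 * φ x + ∑ q, (-∑ l, g l x * Z l q x) * pd q φ x) +
        ∑ l, ∑ p, ∑ q, pd p (fun y => pd q φ y * (Z l q y * Zb l p y * v y)) x := by
    intro x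
    by_cases hx : x ∈ ball (0 : V N) 3
    · refine (sys_alg (fun l q => Z l q x) (fun l p => Zb l p x) (fun p q => pd p (pd q φ) x)
        (fun l p => pd p (Zb l p) x) (fun l q p => pd p (Z l q) x) (fun q => pd q φ x)
        (fun p => pd p v x) (fun l => e l x) (fun l => g l x) (v x) (φ x)
        fun l => h l x hx).trans ?_
      congr 1
      refine Finset.sum_congr rfl fun l _ => Finset.sum_congr rfl fun p _ =>
        Finset.sum_congr rfl fun q _ => ?_
      rw [sys_pd_mul (hd (hφ.pd q).1.1.contDiffOn x hx)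
        (hd (((hZ l q).mul (hZb l p)).mul hv) x hx),
        sys_pd_mul (hd ((hZ l q).mul (hZb l p)) x hx) (hd hv x hx),
        sys_pd_mul (hd (hZ l q) x hx) (hd (hZb l p) x hx)]
      ring
    · have h0 : ∀ {ψ : V N → ℂ}, Tst (ball 0 3) ψ → ψ x = 0 := fun hψ =>
        image_eq_zero_of_notMem_tsupport fun h => hx (hψ.2.2 h)
      simp only [Qop, fun q => h0 (hφ.pd q).1, fun p q => h0 ((hφ.pd q).1.pd p).1,
        fun l p q => h0 ((hT l p q).pd p).1, mul_zero, Finset.sum_const_zero, zero_mul, add_zero]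
  have h2 : Integrable fun x => 0 * φ x + ∑ q, (-∑ l, g l x * Z l q x) * pd q φ x := by
    simp only [zero_mul, zero_add]
    refine integrable_finsetSum _ fun q _ => ?_
    have h3 := sys_int (cut_contDiff (a := fun x => -∑ l, g l x * Z l q x) isOpen_ball
      (hφ.pd q).1 (ContDiffOn.sum fun l _ => (hg l).mul (hZ l q)).neg)
    simpa only [mul_comm] using h3
  have h3 : ∀ l p q, Integrable (pd p fun y => pd q φ y * (Z l q y * Zb l p y * v y)) :=
    fun l p q => sys_int ((hT l p q).pd p).1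
  simp only [h1]
  rw [integral_add h2 (integrable_finsetSum _ fun l _ => integrable_finsetSum _ fun p _ =>
    integrable_finsetSum _ fun q _ => h3 l p q), integral_finsetSum _ fun l _ =>
    integrable_finsetSum _ fun p _ => integrable_finsetSum _ fun q _ => h3 l p q,
    Finset.sum_eq_zero, add_zero]
  intro l _
  rw [integral_finsetSum _ fun p _ => integrable_finsetSum _ fun q _ => h3 l p q]
  refine Finset.sum_eq_zero fun p _ => ?_
  rw [integral_finsetSum _ fun q _ => h3 l p q]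
  exact Finset.sum_eq_zero fun q _ => sys_ibp (hT l p q) p

/-- the estimate in all dimensions, for nonnegative `B` -/
theorem sys_core (h : EllS N) :
    ∃ M : ℕ, ∀ K : ℝ, ∃ ε C : ℝ, 0 < ε ∧ ∀ (J₀ : V N →L[ℝ] V N) (J : V N → V N →L[ℝ] V N)
    (e g : Fin N → V N → ℂ) (v : V N → ℂ) (A B : ℝ), 0 ≤ B → ‖J₀‖ ≤ K →
    ContDiffOn ℝ ∞ J (ball 0 3) → (∀ p, ContDiffOn ℝ ∞ (e p) (ball 0 3)) →
    (∀ p, ContDiffOn ℝ ∞ (g p) (ball 0 3)) → ContDiffOn ℝ ∞ v (ball 0 3) →
    Bd M (fun x => J x - J₀) (ball 0 3) ε → (∀ p, Bd M (e p) (ball 0 3) K) →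
    (∀ p, Bd M (g p) (ball 0 3) B) →
    (∀ p, ∀ x ∈ ball (0 : V N) 3,
      fderiv ℝ v x (ee p) + Complex.I * fderiv ℝ v x (J x (ee p)) + e p x * v x = g p x) →
    IntegrableOn v (ball 0 3) → ∫ x in ball 0 3, ‖v x‖ ≤ A →
    ‖v 0‖ ≤ C * (A + B) ∧ ‖fderiv ℝ v 0‖ ≤ C * (A + B) := by
  obtain ⟨M, h⟩ := h 1
  obtain ⟨ε₀, hε₀, h⟩ := h 1 one_pos
  refine ⟨M + 1, fun K => ?_⟩
  obtain ⟨L, hL⟩ : ∃ L : ℝ, L = |K| + 2 := ⟨_, rfl⟩
  have hL0 : 0 < L := by rw [hL]; positivity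
  have hKL : K ≤ L := by linarith [le_abs_self K]
  obtain ⟨C, h⟩ := h (N * (L * L) + N * (N * (2 ^ M * L * L + 2 ^ M * L * L) + 2 ^ M * L * L))
  obtain ⟨ε, hε, hε1, hε2⟩ : ∃ ε : ℝ, 0 < ε ∧ ε ≤ 1 ∧
      N * (2 ^ M * ε * L + 2 ^ M * L * ε) ≤ ε₀ := by
    refine ⟨min 1 (ε₀ / (N * (2 ^ M * L + 2 ^ M * L) + 1)), by positivity, min_le_left _ _, ?_⟩
    have h1 := min_le_right 1 (ε₀ / (N * (2 ^ M * L + 2 ^ M * L) + 1))
    have h2 : 0 < min 1 (ε₀ / (N * (2 ^ M * L + 2 ^ M * L) + 1)) := by positivity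
    generalize min 1 (ε₀ / (N * (2 ^ M * L + 2 ^ M * L) + 1)) = ε at h1 h2
    rw [le_div_iff₀ (by positivity)] at h1
    linarith
  refine ⟨ε, |C| * (N * (2 ^ M * L) + 1), hε, ?_⟩
  intro J₀ J e g v A B hB hK hJ he hg hv bJ be bg heq hi hA
  have z := fun l p => sys_Z (σ := -Complex.I) (by simp) hK hε.le hε1 hJ bJ l p
  have zb := fun l p => sys_Z (σ := Complex.I) (by simp) hK hε.le hε1 hJ bJ l p
  rw [← hL] at z zb
  have lo : ∀ {f : V N → ℂ} {B : ℝ}, Bd (M + 1) f (ball 0 3) B → Bd M f (ball 0 3) B :=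
    fun hf => hf.mono (Nat.le_succ M) subset_rfl le_rfl
  have hw := sys_weak (e := e) (fun l p => (z l p).1) (fun l p => (zb l p).1) hg hv
    fun l x hx => by rw [sys_sum, ← sys_fderiv, ← heq l x hx, pd]
  have c1 : ∀ l q p, ContDiffOn ℝ ∞ (fun x => sysZ Complex.I (J x) l p *
      pd p (fun x => sysZ (-Complex.I) (J x) l q) x +
      pd p (fun x => sysZ Complex.I (J x) l p) x * sysZ (-Complex.I) (J x) l q) (ball 0 3) :=
    fun l q p => ((zb l p).1.mul (contDiffOn_pd isOpen_ball (z l q).1 p)).add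
      ((contDiffOn_pd isOpen_ball (zb l p).1 p).mul (z l q).1)
  have c2 := fun l q => (ContDiffOn.sum (s := Finset.univ) fun p _ => c1 l q p).add
    ((he l).mul (z l q).1).neg
  have n1 : (0 : ℝ) ≤ N * (L * L) := by positivity
  have n2 : (0 : ℝ) ≤ N * (N * (2 ^ M * L * L + 2 ^ M * L * L) + 2 ^ M * L * L) := by positivity
  obtain ⟨w, hw1, hw2, hw3⟩ := h _ _ _ _ v _ _ A (N * (2 ^ M * B * L)) (sys_symb J₀)
    (fun p q => by
      refine (norm_sum_le _ _).trans ((Finset.sum_le_sum (g := fun _ => L * L) fun l _ =>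
        (norm_mul_le _ _).trans (mul_le_mul (zb l p).2.2.1 (z l q).2.2.1 (norm_nonneg _)
          hL0.le)).trans ?_)
      rw [Finset.sum_const, Finset.card_fin, nsmul_eq_mul]
      linarith)
    (fun p q => ContDiffOn.sum fun l _ => (zb l p).1.mul (z l q).1)
    (fun q => ContDiffOn.sum fun l _ => c2 l q) contDiffOn_const contDiffOn_const
    (fun q => (ContDiffOn.sum fun l _ => (hg l).mul (z l q).1).neg)
    (fun p q => by
      have k1 := fun l => ((zb l p).1.sub contDiffOn_const (g := fun _ =>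
        sysZ Complex.I J₀ l p)).mul (z l q).1
      have k2 := fun l => (contDiffOn_const (c := sysZ Complex.I J₀ l p)).mul
        ((z l q).1.sub contDiffOn_const (g := fun _ => sysZ (-Complex.I) J₀ l q))
      have k3 := Bd.sum isOpen_ball (fun l => (k1 l).add (k2 l)) fun l =>
        Bd.add isOpen_ball (k1 l) (k2 l)
          (Bd.mul isOpen_ball ((zb l p).1.sub contDiffOn_const) (z l q).1 (lo (zb l p).2.1)
            (lo (z l q).2.2.2))
          (Bd.mul isOpen_ball contDiffOn_const ((z l q).1.sub contDiffOn_const)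
            ((Bd_const M _ _).mono le_rfl subset_rfl (zb l p).2.2.1) (lo (z l q).2.1))
      rw [Fintype.card_fin] at k3
      refine (k3.mono le_rfl subset_rfl hε2).congr isOpen_ball fun x _ => ?_
      simp only [← Finset.sum_sub_distrib]
      exact Finset.sum_congr rfl fun l _ => by ring)
    (fun q => by
      have k1 := fun l => Bd.sum isOpen_ball (c1 l q) fun p => Bd.add isOpen_ball
        ((zb l p).1.mul (contDiffOn_pd isOpen_ball (z l q).1 p))
        ((contDiffOn_pd isOpen_ball (zb l p).1 p).mul (z l q).1)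
        (Bd.mul isOpen_ball (zb l p).1 (contDiffOn_pd isOpen_ball (z l q).1 p)
          (lo (zb l p).2.2.2) (Bd.pd isOpen_ball (z l q).1 (z l q).2.2.2 p))
        (Bd.mul isOpen_ball (contDiffOn_pd isOpen_ball (zb l p).1 p) (z l q).1
          (Bd.pd isOpen_ball (zb l p).1 (zb l p).2.2.2 p) (lo (z l q).2.2.2))
      have k2 := Bd.sum isOpen_ball (fun l => c2 l q) fun l => Bd.add isOpen_ball
        (ContDiffOn.sum fun p _ => c1 l q p) ((he l).mul (z l q).1).neg (k1 l)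
        (Bd.mul isOpen_ball (he l) (z l q).1 ((lo (be l)).mono le_rfl subset_rfl hKL)
          (lo (z l q).2.2.2)).neg
      rw [Fintype.card_fin] at k2
      exact k2.mono le_rfl subset_rfl (by linarith))
    ((Bd_const M _ _).mono le_rfl subset_rfl (by rw [norm_zero]; linarith))
    ((Bd_const M _ _).mono le_rfl subset_rfl (by rw [norm_zero]; positivity))
    (fun q => by
      have k1 := Bd.sum isOpen_ball (fun l => (hg l).mul (z l q).1) fun l =>
        Bd.mul isOpen_ball (hg l) (z l q).1 (lo (bg l)) (lo (z l q).2.2.2)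
      rw [Fintype.card_fin] at k1
      exact k1.neg) hi hA hw
  have hA0 : 0 ≤ A := (integral_nonneg fun x => norm_nonneg _).trans hA
  have e1 : EqOn v w (ball 0 1) := Measure.eqOn_open_of_ae_eq
    ((ae_restrict_iff' measurableSet_ball).2 hw2) isOpen_ball
    (hv.continuousOn.mono (ball_subset_ball (by norm_num))) hw1.continuous.continuousOn
  have e2 : v =ᶠ[𝓝 0] w := e1.eventuallyEq_of_mem (ball_mem_nhds 0 one_pos)
  have hC : C * (A + N * (2 ^ M * B * L)) ≤ |C| * (N * (2 ^ M * L) + 1) * (A + B) := by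
    rw [mul_assoc |C|]
    refine mul_le_mul (le_abs_self C) ?_ (by positivity) (abs_nonneg C)
    have : (0 : ℝ) ≤ N * (2 ^ M * L) * A := by positivity
    linarith
  have b0 := hw3 0 (Nat.zero_le _) 0 (mem_univ _)
  have b1 := hw3 1 le_rfl 0 (mem_univ _)
  rw [norm_iteratedFDeriv_zero] at b0
  rw [norm_iteratedFDeriv_one] at b1
  rw [e2.eq_of_nhds, e2.fderiv_eq]
  exact ⟨b0.trans hC, b1.trans hC⟩

theorem sysS (hN : 0 < N) (h : EllS N) : SysS N := by
  obtain ⟨M, h⟩ := sys_core h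
  refine ⟨M, fun K => ?_⟩
  obtain ⟨ε, C, hε, h⟩ := h K
  exact ⟨ε, C, hε, fun J₀ J e g v A B hK hJ he hg hv bJ be bg => h J₀ J e g v A B
    ((norm_nonneg _).trans ((bg ⟨0, hN⟩).norm_le (mem_ball_self (by norm_num)))) hK hJ he hg hv bJ
    be bg⟩

end Vale.Agent.P292E
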