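import Vale.Agent.P292E.CUC
import Vale.Agent.P292E.UProj

/-! The projection on the cone. -/

set_option maxSynthPendingDepth 3

open scoped ContDiff Topology ComplexConjugate
open Set Filter MeasureTheory Metric
open Vale.Agent.P292 (Cone)

noncomputable section

namespace Vale.Agent.P292E

variable {N : ℕ} {C : Type} [TopologicalSpace C]

/-- normalisation -/
def CProjN (A : Cone (V N) C) (c : C) : {c // A.r c = 1} :=
  ⟨A.act ((A.r c : ℝ) : ℂ)⁻¹ c, by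
    rw [A.r_act _ _ (inv_ne_zero (Complex.ofReal_ne_zero.2 (A.r_pos c).ne')), norm_inv,
      Complex.norm_real, Real.norm_of_nonneg (A.r_pos c).le, inv_mul_cancel₀ (A.r_pos c).ne']⟩

theorem CProj_lift {A : Cone (V N) C} (hJ : A.JFacts) (U : UC N {c // A.r c = 1}) (φ : U.ι → A.ι)
    (hU : ∀ b, U.B b = A.base (φ b) ∧
      (∀ c, c ∈ U.O b ↔ c.1 ∈ (A.τ (φ b)).source) ∧ (∀ c, U.z b c = zc A (φ b) c.1) ∧
      (∀ c, U.l b c = lu A (φ b) c.1) ∧ (∀ y ∈ A.base (φ b), (U.σ b y).1 = sg A (φ b) y) ∧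
      U.J b = JV A (φ b) ∧ U.A b = AV A (φ b)) {k : ℕ} {t : {c // A.r c = 1} → ℂ}
    (ht : t ∈ U.G k) (hh' : ∀ b, ∀ y ∈ U.B b, ∀ v, Dbv (U.J b) (U.A b) k (U.loc b t) y v = 0) :
    ∃ s, A.Sm s ∧ A.Hom k s ∧ A.Hol s ∧ ∀ b, ∀ y ∈ A.base (φ b), lc A (φ b) s y = U.loc b t y := by
  have hr : ∀ c, ((A.r c : ℝ) : ℂ) ≠ 0 := fun c => Complex.ofReal_ne_zero.2 (A.r_pos c).ne'
  obtain ⟨s, hs⟩ : ∃ s : C → ℂ, ∀ b, ∀ c ∈ (A.τ (φ b)).source,
      s c = lu A (φ b) c ^ k * U.loc b t (zc A (φ b) c) := by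
    refine ⟨fun c => ((A.r c : ℝ) : ℂ) ^ k * t (CProjN A c), fun b c hc => ?_⟩
    have h0 := inv_ne_zero (hr c)
    have h1 : CProjN A c ∈ U.O b := ((hU b).2.1 _).2 ((act_mem_iff h0).2 hc)
    have h2 : U.l b (CProjN A c) = ((A.r c : ℝ) : ℂ)⁻¹ * lu A (φ b) c :=
      ((hU b).2.2.2.1 _).trans (lu_act hc h0)
    have h3 : U.z b (CProjN A c) = zc A (φ b) c := ((hU b).2.2.1 _).trans (zc_act hc h0)
    simp only
    rw [UC.eq_loc ht h1, h2, h3, ← mul_assoc, ← mul_pow, mul_inv_cancel_left₀ (hr c)]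
  have hcov : ∀ c, ∃ b, c ∈ (A.τ (φ b)).source := fun c => by
    obtain ⟨b, hb, -⟩ := U.cover (CProjN A c)
    exact ⟨b, (act_mem_iff (inv_ne_zero (hr c))).1 (((hU b).2.1 _).1 hb)⟩
  have hlc : ∀ b, ∀ y ∈ A.base (φ b), lc A (φ b) s y = U.loc b t y := fun b y hy => by
    rw [lc, hs b _ (sg_mem hy), lu_sg hy, zc_sg hy, one_pow, one_mul]
  have hom : A.Hom k s := fun l c hl => by
    obtain ⟨b, hb⟩ := hcov c
    rw [hs b c hb, hs b _ ((act_mem_iff hl).2 hb), lu_act hb hl, zc_act hb hl, mul_pow, mul_assoc]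
  have hsm : A.Sm s := by
    refine sm_of_cover fun c => ?_
    obtain ⟨b, hb⟩ := hcov c
    refine ⟨φ b, hb, ?_⟩
    have hp := (A.τ (φ b)).map_source hb
    have hn := (A.base_open (φ b)).mem_nhds (target_fst hp).1
    have a1 : ContDiffAt ℝ ∞ (fun p : V N × ℂ => ((hh A (φ b) p.1 : ℝ) : ℂ)) (A.τ (φ b) c) :=
      Complex.ofRealCLM.contDiff.contDiffAt.comp _
        (((hh_sm A (φ b)).contDiffAt hn).comp _ contDiffAt_fst)
    have a2 : ContDiffAt ℝ ∞ (fun p : V N × ℂ => U.loc b t p.1) (A.τ (φ b) c) :=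
      ((UC.loc_sm ht b).contDiffAt ((hU b).1 ▸ hn)).comp _ contDiffAt_fst
    refine (((contDiffAt_snd.mul a1).pow k).mul a2).congr_of_eventuallyEq ?_
    filter_upwards [(A.τ (φ b)).open_target.mem_nhds hp] with p hp'
    rw [Function.comp_apply, symm_eq_lc hom hp', hlc b _ (target_fst hp').1]
  refine ⟨s, hsm, hom, hol_of_cover hJ hsm fun c => ?_, hlc⟩
  obtain ⟨b, hb⟩ := hcov c
  refine ⟨φ b, hb, ContinuousLinearMap.ext fun v => ?_⟩
  have hp := (A.τ (φ b)).map_source hb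
  have he : lc A (φ b) s =ᶠ[𝓝 (A.τ (φ b) c).1] U.loc b t := by
    filter_upwards [(A.base_open (φ b)).mem_nhds (target_fst hp).1] with y hy using hlc b y hy
  rw [dbar_lc hJ hsm hom hp, UProj_congr he, ← (hU b).2.2.2.2.2.1, ← (hU b).2.2.2.2.2.2,
    hh' b _ ((hU b).1 ▸ (target_fst hp).1), mul_zero, ContinuousLinearMap.zero_apply]

theorem projS [T2Space C] [Nonempty C] (hR : RegS N) {A : Cone (V N) C} (hJ : A.JFacts) :
    ProjS A := by
  intro j j' K K' hK hKj hK' hKj'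
  obtain ⟨U, φ, a, a', rfl, rfl, h1, h2, hU⟩ := exists_uc hJ j j' hK hKj hK' hKj'
  have hKa : K ⊆ U.B a := (hU a).1 ▸ hKj
  obtain ⟨k₀, B, h⟩ := U.proj hR a hK hKa
  refine ⟨k₀, B, fun k hk F hF hFK => ?_⟩
  have hF' : Tst (U.B a) F := (hU a).1 ▸ hF
  have hsupp : ∀ c, U.ext a k F c ≠ 0 → c ∈ U.O a ∧ U.z a c ∈ K := by
    intro c hc
    by_cases k' : c ∈ U.O a
    · rw [UC.ext_of_mem k'] at hc
      exact ⟨k', hFK (subset_tsupport _ (right_ne_zero_of_mul hc))⟩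
    · exact absurd (UC.ext_of_notMem k') hc
  obtain ⟨t, ht, hh', hest⟩ := h k hk _ (UC.ext_mem hF' k) hsupp
  obtain ⟨s, hsm, hom, hol, hlc⟩ := CProj_lift hJ U φ hU ht hh'
  have e : ∫ y in K, ∑ p, ‖Dbv (U.J a) (U.A a) k (U.loc a (U.ext a k F)) y (ee p)‖ ^ 2 =
      ∫ y in K, ∑ p, ‖Dbv (JV A (φ a)) (AV A (φ a)) k F y (ee p)‖ ^ 2 := by
    refine setIntegral_congr_fun hK.measurableSet fun y hy => ?_
    have he : U.loc a (U.ext a k F) =ᶠ[𝓝 y] F := by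
      filter_upwards [(UC.B_open a).mem_nhds (hKa hy)] with x hx using UC.loc_ext hx
    simp only [UProj_congr he, (hU a).2.2.2.2.2.1, (hU a).2.2.2.2.2.2]
  rw [e] at hest
  refine ⟨s, hsm, hom, hol, le_of_eq_of_le ?_ (hest a K hK h1),
    fun hd => le_of_eq_of_le ?_ (hest a' K' hK' h2)⟩
  · refine setIntegral_congr_fun hK.measurableSet fun y hy => ?_
    simp only [hlc a y (hKj hy), UC.loc_ext (hKa hy)]
  · refine setIntegral_congr_fun hK'.measurableSet fun y hy => ?_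
    have h0 : U.loc a' (U.ext a k F) y = 0 := by
      by_contra k'
      obtain ⟨b1, b2⟩ := hsupp _ k'
      rw [(hU a).2.1, (hU a').2.2.2.2.1 y (hKj' hy)] at b1
      rw [(hU a).2.2.1, (hU a').2.2.2.2.1 y (hKj' hy)] at b2
      exact hd y hy ⟨b1, b2⟩
    simp only [hlc a' y (hKj' hy), h0, sub_zero]

end Vale.Agent.P292E
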