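import Vale.Agent.P292E.CLoc

/-! Immersions are locally injective, and being an immersion is an open invariant condition. -/

set_option maxSynthPendingDepth 3

open scoped ContDiff Topology ComplexConjugate
open Set Filter MeasureTheory Metric
open Vale.Agent.P292 (Cone)

noncomputable section

namespace Vale.Agent.P292E

variable {N : ℕ} {C : Type} [TopologicalSpace C]

variable {A : Cone (V N) C}

theorem EOpen_cont {u : C → ℂ} (hu : A.Sm u) : Continuous u := by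
  refine continuous_iff_continuousAt.2 fun c => ?_
  obtain ⟨j, hc⟩ := A.cover c
  have h1 := ((hu j).continuousOn.continuousAt
    ((A.τ j).open_target.mem_nhds ((A.τ j).map_source hc))).comp ((A.τ j).continuousAt hc)
  refine h1.congr ?_
  filter_upwards [(A.τ j).open_source.mem_nhds hc] with d hd
  simp only [Function.comp, (A.τ j).left_inv hd]

theorem Fam.cont (Φ : Fam A) : Continuous Φ.Φ := continuous_pi fun i => EOpen_cont (Φ.sm i)

theorem EOpen_at (Φ : Fam A) {j : A.ι} {p : V N × ℂ} (hp : p ∈ (A.τ j).target) :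
    ContDiffAt ℝ ∞ (Φ.Φ ∘ (A.τ j).symm) p :=
  contDiffAt_pi.2 fun i => (Φ.sm i j).contDiffAt ((A.τ j).open_target.mem_nhds hp)

theorem EOpen_diff (Φ : Fam A) {j : A.ι} {p : V N × ℂ} (hp : p ∈ (A.τ j).target) :
    DifferentiableAt ℝ (Φ.Φ ∘ (A.τ j).symm) p := (EOpen_at Φ hp).differentiableAt (by simp)

theorem EOpen_fd (Φ : Fam A) {j : A.ι} {p : V N × ℂ} (hp : p ∈ (A.τ j).target) (v : V N × ℂ)
    (i : Φ.κ) : fderiv ℝ (Φ.Φ ∘ (A.τ j).symm) p v i =
      fderiv ℝ ((fun c => Φ.Φ c i) ∘ (A.τ j).symm) p v := by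
  have h := fderiv_apply (EOpen_diff Φ hp) i
  exact (DFunLike.congr_fun h v).symm

theorem EOpen_chart (Φ : Fam A) {c : C} {i j : A.ι} (hj : c ∈ (A.τ j).source)
    (hi : c ∈ (A.τ i).source)
    (h : Function.Injective (fderiv ℝ (Φ.Φ ∘ (A.τ j).symm) (A.τ j c))) :
    Function.Injective (fderiv ℝ (Φ.Φ ∘ (A.τ i).symm) (A.τ i c)) := by
  have hn : (A.τ j).target ∩ (A.τ j).symm ⁻¹' (A.τ i).source ∈ 𝓝 (A.τ j c) :=
    ((A.τ j).isOpen_inter_preimage_symm (A.τ i).open_source).mem_nhds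
      ⟨(A.τ j).map_source hj, by simpa [(A.τ j).left_inv hj] using hi⟩
  have hT := (((A.smooth i j).contDiffAt hn).differentiableAt (by simp)).hasFDerivAt
  have e : (A.τ i ∘ (A.τ j).symm) (A.τ j c) = A.τ i c := by simp [(A.τ j).left_inv hj]
  have hg := (EOpen_diff Φ ((A.τ i).map_source hi)).hasFDerivAt
  rw [← e] at hg
  have h1 := (hg.comp _ hT).congr_of_eventuallyEq (f₁ := Φ.Φ ∘ (A.τ j).symm) (by
    filter_upwards [hn] with q hq
    simp only [Function.comp, (A.τ i).left_inv hq.2])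
  rw [h1.fderiv, e, ContinuousLinearMap.coe_comp] at h
  exact h.of_comp_right (LinearMap.injective_iff_surjective.1
    (show Function.Injective (fderiv ℝ (A.τ i ∘ (A.τ j).symm) (A.τ j c)).toLinearMap from
      h.of_comp))

theorem EOpen_act (Φ : Fam A) {j : A.ι} {p : V N × ℂ} (hp : p ∈ (A.τ j).target) {l : ℂ}
    (hl : l ≠ 0) (h : Function.Injective (fderiv ℝ (Φ.Φ ∘ (A.τ j).symm) p)) :
    Function.Injective (fderiv ℝ (Φ.Φ ∘ (A.τ j).symm) (p.1, l * p.2)) := by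
  let S : V N × ℂ →L[ℝ] V N × ℂ :=
    (ContinuousLinearMap.id ℝ (V N)).prodMap (ContinuousLinearMap.mul ℝ ℂ l)
  let D : (Φ.κ → ℂ) →L[ℝ] Φ.κ → ℂ := ContinuousLinearMap.pi fun i =>
    (ContinuousLinearMap.mul ℝ ℂ (l ^ Φ.w i)).comp (ContinuousLinearMap.proj i)
  have hp' : S p ∈ (A.τ j).target :=
    mem_target (target_fst hp).1 (mul_ne_zero hl (target_fst hp).2)
  have h1 := (EOpen_diff Φ hp').hasFDerivAt.comp p S.hasFDerivAt
  have h2 := (D.hasFDerivAt.comp p (EOpen_diff Φ hp).hasFDerivAt).congr_of_eventuallyEq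
    (f₁ := (Φ.Φ ∘ (A.τ j).symm) ∘ S) (by
      filter_upwards [(A.τ j).open_target.mem_nhds hp] with q hq
      funext i
      exact (congrArg (fun c => Φ.Φ c i) (symm_act hq hl)).trans (Φ.hom i l _ hl))
  have hD : Function.Injective D := fun a b hab => funext fun i =>
    mul_left_cancel₀ (pow_ne_zero (Φ.w i) hl) (congrFun hab i)
  have h3 := hD.comp h
  rw [← ContinuousLinearMap.coe_comp, h2.unique h1, ContinuousLinearMap.coe_comp] at h3
  exact h3.of_comp_right fun v => ⟨(v.1, l⁻¹ * v.2), Prod.ext rfl (mul_inv_cancel_left₀ hl _)⟩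

theorem EOpen_inj {E F : Type} [NormedAddCommGroup E] [NormedSpace ℝ E] [FiniteDimensional ℝ E]
    [NormedAddCommGroup F] [NormedSpace ℝ F] {g : E → F} {p : E} (hg : ContDiffAt ℝ ∞ g p)
    (h : Function.Injective (fderiv ℝ g p)) :
    ∃ W ∈ 𝓝 p, InjOn g W ∧ ∀ q ∈ W, Function.Injective (fderiv ℝ g q) := by
  obtain ⟨K, hK, hA⟩ := (fderiv ℝ g p).toLinearMap.exists_antilipschitzWith
    (LinearMap.ker_eq_bot.2 h)
  have hK' : (0 : ℝ) < K := hK
  have h1 := (hg.hasStrictFDerivAt (by simp)).isLittleO.def (c := (2 * K)⁻¹) (by positivity)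
  rw [nhds_prod_eq] at h1
  obtain ⟨a, ha, b, hb, hab⟩ := eventually_prod_iff.1 h1
  have h2 : ∀ᶠ q in 𝓝 p, Function.Injective (fderiv ℝ g q) :=
    (hg.continuousAt_fderiv (by simp)).eventually
      (ContinuousLinearMap.isOpen_injective.mem_nhds h)
  refine ⟨_, ha.and (hb.and h2), fun x hx y hy hxy => ?_, fun q hq => hq.2.2⟩
  have k1 := hab hx.1 hy.2.1
  have k2 := hA.le_mul_dist (x - y) 0
  simp only [hxy, sub_self, zero_sub, norm_neg] at k1
  simp only [dist_zero_right, map_zero, ContinuousLinearMap.coe_coe] at k2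
  have k3 := mul_le_mul_of_nonneg_left k1 hK'.le
  have k4 : (K : ℝ) * ((2 * (K : ℝ))⁻¹ * ‖x - y‖) = ‖x - y‖ / 2 := by field_simp
  exact sub_eq_zero.1 (norm_le_zero_iff.1 (by linarith))

theorem Fam.nhds (Φ : Fam A) {c : C} {j : A.ι} (hc : c ∈ (A.τ j).source)
    (h : Function.Injective (fderiv ℝ (Φ.Φ ∘ (A.τ j).symm) (A.τ j c))) :
    ∃ O : Set C, IsOpen O ∧ c ∈ O ∧ InjOn Φ.Φ O ∧ ∀ c' ∈ O, ∀ l : ℂ, l ≠ 0 → ∀ i,
      A.act l c' ∈ (A.τ i).source →
        Function.Injective (fderiv ℝ (Φ.Φ ∘ (A.τ i).symm) (A.τ i (A.act l c'))) := by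
  obtain ⟨W, hW, h1, h2⟩ := EOpen_inj (EOpen_at Φ ((A.τ j).map_source hc)) h
  refine ⟨(A.τ j).source ∩ A.τ j ⁻¹' interior W, (A.τ j).isOpen_inter_preimage isOpen_interior,
    ⟨hc, mem_interior_iff_mem_nhds.2 hW⟩, fun a ha b hb hab => ?_, fun c' hc' l hl i hi => ?_⟩
  · refine (A.τ j).injOn ha.1 hb.1 (h1 (interior_subset ha.2) (interior_subset hb.2) ?_)
    simp only [Function.comp, (A.τ j).left_inv ha.1, (A.τ j).left_inv hb.1, hab]
  · refine EOpen_chart Φ (A.act_mem j c' hc'.1 l hl) hi ?_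
    rw [A.act_eq j c' hc'.1 l hl]
    exact EOpen_act Φ ((A.τ j).map_source hc'.1) hl (h2 _ (interior_subset hc'.2))

end Vale.Agent.P292E
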