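import Vale.Agent.P292E.EImm
import Vale.Agent.P292E.EOpen

/-! The embedding. -/

set_option maxSynthPendingDepth 3

open scoped ContDiff Topology ComplexConjugate
open Set Filter MeasureTheory Metric
open Vale.Agent.P292 (Cone)

noncomputable section

namespace Vale.Agent.P292E

variable {N : ℕ} {C : Type} [TopologicalSpace C]

theorem EFin_unit (A : Cone (V N) C) (c : C) : ((A.r c : ℂ))⁻¹ ≠ 0 ∧
    A.r (A.act ((A.r c : ℂ))⁻¹ c) = 1 ∧ A.act (A.r c) (A.act ((A.r c : ℂ))⁻¹ c) = c := by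
  have h := (A.r_pos c).ne'
  have h1 : (A.r c : ℂ) ≠ 0 := by exact_mod_cast h
  refine ⟨inv_ne_zero h1, ?_, by rw [act_act A h1 (inv_ne_zero h1), mul_inv_cancel₀ h1, act_one]⟩
  rw [A.r_act _ _ (inv_ne_zero h1), norm_inv, Complex.norm_real,
    Real.norm_of_nonneg (A.r_pos c).le, inv_mul_cancel₀ h]

theorem EFin_sep {A : Cone (V N) C} (hJ : A.JFacts) (hP : PeakS A) {T : Set C} {O : C → Set C}
    (hO : ∀ a, IsOpen (O a)) (hT : {c | A.r c = 1} ⊆ ⋃ a ∈ T, O a) (d : C × C × ℝ) :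
    ∃ (k : ℕ) (s : C → ℂ) (U : Set (C × C × ℝ)), 0 < k ∧ A.Sm s ∧ A.Hom k s ∧ A.Hol s ∧
      (d ∈ {c | A.r c = 1} ×ˢ {c | A.r c = 1} ×ˢ Icc (0 : ℝ) 1 → U ∈ 𝓝 d) ∧ ∀ e ∈ U,
        s e.1 ≠ (e.2.2 : ℂ) ^ k * s e.2.1 ∨
          0 < e.2.2 ∧ ∃ a ∈ T, e.1 ∈ O a ∧ A.act e.2.2 e.2.1 ∈ O a := by
  have z1 : A.Sm fun _ => 0 := fun j => contDiffOn_const
  have z2 : A.Hom 1 fun _ => 0 := fun l c _ => (mul_zero _).symm
  have z3 : A.Hol fun _ => 0 := fun j p _ => by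
    have e : (fun _ => (0 : ℂ)) ∘ (A.τ j).symm = fun _ => 0 := rfl
    simp [Cone.dbar, e]
  obtain ⟨c, c', t⟩ := d
  by_cases hd : (c, c', t) ∈ {c | A.r c = 1} ×ˢ {c | A.r c = 1} ×ˢ Icc (0 : ℝ) 1
  swap
  · exact ⟨1, _, ∅, one_pos, z1, z2, z3, fun h => absurd h hd, fun _ h => h.elim⟩
  by_cases h : t = 1 ∧ c' = c
  · obtain ⟨rfl, rfl⟩ := h
    obtain ⟨a, ha, hca⟩ := mem_iUnion₂.1 (hT hd.1)
    refine ⟨1, _, {e | 0 < e.2.2 ∧ e.1 ∈ O a ∧ A.act e.2.2 e.2.1 ∈ O a}, one_pos, z1, z2, z3,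
      fun _ => ?_, fun e he => Or.inr ⟨he.1, a, ha, he.2⟩⟩
    have h1 : ContinuousAt (fun p : ℂ × C => A.act p.1 p.2) (((1 : ℝ) : ℂ), c') :=
      A.act_cont.continuousAt ((isOpen_ne_fun continuous_fst continuous_const).mem_nhds (by simp))
    have h2 : ContinuousAt (fun e : C × C × ℝ => A.act e.2.2 e.2.1) (c', c', 1) :=
      h1.comp_of_eq (f := fun e : C × C × ℝ => ((e.2.2 : ℂ), e.2.1)) (by fun_prop) rfl
    refine Eventually.and (continuous_snd.snd.continuousAt.eventually (lt_mem_nhds one_pos))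
      (Eventually.and (continuous_fst.continuousAt.eventually ((hO a).mem_nhds hca))
        (h2.eventually ((hO a).mem_nhds ?_)))
    simpa [act_one] using hca
  · obtain ⟨k, s, h1, h2, h3, h4, h5⟩ := exists_sep hJ hP hd.1 hd.2.1 hd.2.2 h
    have h6 := EOpen_cont h2
    exact ⟨k, s, {e | s e.1 ≠ (e.2.2 : ℂ) ^ k * s e.2.1}, h1, h2, h3, h4,
      fun _ => (isOpen_ne_fun (by fun_prop) (by fun_prop)).mem_nhds h5, fun e he => Or.inl he⟩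

theorem exists_emb {A : Cone (V N) C} (hJ : A.JFacts) (hP : PeakS A) :
    ∃ (κ : Type) (_ : Fintype κ), Nonempty (A.Emb κ) := by
  choose Φ j hj hi using exists_imm hJ hP
  choose O hO hc hinj himm using fun c => (Φ c).nhds (hj c) (hi c)
  obtain ⟨T, -, hT⟩ := A.compact.elim_nhds_subcover O fun c _ => (hO c).mem_nhds (hc c)
  choose k s U hk h1 h2 h3 hU hs using EFin_sep hJ hP (T := T) hO hT
  obtain ⟨T', -, hT'⟩ := (A.compact.prod (A.compact.prod isCompact_Icc)).elim_nhds_subcover U hU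
  let Ψ : Fam A :=
    { κ := (Σ a : T, (Φ a).κ) ⊕ T'
      w := Sum.elim (fun x => (Φ x.1).w x.2) fun d => k d
      w_pos := Sum.rec (fun x => (Φ x.1).w_pos x.2) fun d => hk d
      Φ := fun c => Sum.elim (fun x => (Φ x.1).Φ c x.2) fun d => s d c
      sm := Sum.rec (fun x => (Φ x.1).sm x.2) fun d => h1 d
      hom := Sum.rec (fun x => (Φ x.1).hom x.2) fun d => h2 d
      hol := Sum.rec (fun x => (Φ x.1).hol x.2) fun d => h3 d }
  have key : ∀ c c' : C, A.r c' ≤ A.r c → Ψ.Φ c = Ψ.Φ c' → c = c' := fun c c' hr h => by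
    obtain ⟨a1, a2, a3⟩ := EFin_unit A c
    obtain ⟨b1, b2, -⟩ := EFin_unit A c'
    have ht : 0 < A.r c' / A.r c := div_pos (A.r_pos _) (A.r_pos _)
    have ht' : ((A.r c' / A.r c : ℝ) : ℂ) ≠ 0 := by exact_mod_cast ht.ne'
    have e : A.act (A.r c' / A.r c : ℝ) (A.act ((A.r c' : ℂ))⁻¹ c') = A.act ((A.r c : ℂ))⁻¹ c' := by
      rw [act_act A ht' b1, Complex.ofReal_div, div_mul_comm, div_eq_mul_inv, mul_right_comm,
        inv_mul_cancel₀ (mt inv_eq_zero.2 b1), one_mul]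
    have e2 : Ψ.Φ (A.act ((A.r c : ℂ))⁻¹ c) = Ψ.Φ (A.act ((A.r c : ℂ))⁻¹ c') := funext fun i =>
      (Ψ.hom i _ _ a1).trans ((congrArg _ (congrFun h i)).trans (Ψ.hom i _ _ a1).symm)
    obtain ⟨d, hd, hm⟩ := mem_iUnion₂.1 (hT' (show (A.act ((A.r c : ℂ))⁻¹ c,
      A.act ((A.r c' : ℂ))⁻¹ c', A.r c' / A.r c) ∈ _ from
        ⟨a2, b2, ht.le, (div_le_one (A.r_pos _)).2 hr⟩))
    rcases hs d _ hm with k1 | ⟨-, a, ha, k1, k2⟩
    · refine absurd ((congrFun e2 (Sum.inr ⟨d, hd⟩)).trans ?_) k1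
      rw [← e]
      exact h2 d _ _ ht'
    · dsimp only at k1 k2
      rw [e] at k2
      have k3 := hinj a k1 k2 (funext fun i => congrFun e2 (Sum.inl ⟨⟨a, ha⟩, i⟩))
      rw [← a3, k3, act_act A (mt inv_eq_zero.2 a1) a1, mul_inv_cancel₀ (mt inv_eq_zero.2 a1),
        act_one]
  refine ⟨Ψ.κ, Ψ.fin, ⟨⟨Ψ.w, Ψ.w_pos, Ψ.Φ, Ψ.sm, Ψ.hom, Ψ.hol, fun c c' h =>
    (le_total (A.r c') (A.r c)).elim (fun k => key c c' k h) fun k => (key c' c k h.symm).symm,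
    fun c h => ?_, fun i p hp v w h => ?_⟩⟩⟩
  · obtain ⟨a1, a2, -⟩ := EFin_unit A c
    obtain ⟨d, hd, hm⟩ := mem_iUnion₂.1 (hT' (show (A.act ((A.r c : ℂ))⁻¹ c,
      A.act ((A.r c : ℂ))⁻¹ c, (0 : ℝ)) ∈ _ from ⟨a2, a2, le_rfl, zero_le_one⟩))
    rcases hs d _ hm with k1 | ⟨k1, -⟩
    · have k2 : s d c = 0 := congrFun h (Sum.inr ⟨d, hd⟩)
      exact k1 (by simp [h2 d _ _ a1, k2])
    · exact lt_irrefl _ k1
  · obtain ⟨a1, a2, a3⟩ := EFin_unit A ((A.τ i).symm p)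
    obtain ⟨a, ha, hm⟩ := mem_iUnion₂.1 (hT a2)
    have k1 := himm a _ hm _ (mt inv_eq_zero.2 a1) i (by rw [a3]; exact (A.τ i).map_target hp)
    rw [a3, (A.τ i).right_inv hp] at k1
    refine k1 (funext fun q => ?_)
    rw [EOpen_fd _ hp, EOpen_fd _ hp]
    exact (EOpen_fd Ψ hp v (Sum.inl ⟨⟨a, ha⟩, q⟩)).symm.trans
      ((congrFun h _).trans (EOpen_fd Ψ hp w (Sum.inl ⟨⟨a, ha⟩, q⟩)))

end Vale.Agent.P292E
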