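import Vale.Agent.P292E.CDer

/-! The geometric data on the base. -/

set_option maxSynthPendingDepth 3

open scoped ContDiff Topology ComplexConjugate
open Set Filter MeasureTheory Metric
open Vale.Agent.P292 (Cone)

noncomputable section

namespace Vale.Agent.P292E

variable {N : ℕ} {C : Type} [TopologicalSpace C]

section

variable {A : Cone (V N) C} {j : A.ι} {p : V N × ℂ}

theorem CGeo_inl (A : Cone (V N) C) (j : A.ι) {F : Type} [NormedAddCommGroup F] [NormedSpace ℝ F]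
    {f : V N × ℂ → F} (hf : ContDiffOn ℝ ∞ f (A.τ j).target) :
    ContDiffOn ℝ ∞ (fun y => f (y, 1)) (A.base j) :=
  hf.comp (contDiffOn_id.prodMk contDiffOn_const) fun _ hy => mem_target hy one_ne_zero

theorem CGeo_phi (A : Cone (V N) C) (j : A.ι) :
    ContDiffOn ℝ ∞ (fun q => Real.log (A.r ((A.τ j).symm q))) (A.τ j).target :=
  (A.r_smooth j).log fun _ _ => (A.r_pos _).ne'

theorem CGeo_dphi (A : Cone (V N) C) (j : A.ι) :
    ContDiffOn ℝ ∞ (fderiv ℝ fun q => Real.log (A.r ((A.τ j).symm q))) (A.τ j).target :=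
  (CGeo_phi A j).fderiv_of_isOpen (A.τ j).open_target (by simp)

theorem CGeo_JV (A : Cone (V N) C) (j : A.ι) : ContDiffOn ℝ ∞ (JV A j) (A.base j) :=
  contDiffOn_const.clm_comp ((CGeo_inl A j (A.J_smooth j)).clm_comp contDiffOn_const)

theorem CGeo_AV (A : Cone (V N) C) (j : A.ι) : ContDiffOn ℝ ∞ (AV A j) (A.base j) :=
  ((CGeo_inl A j (CGeo_dphi A j)).clm_comp (CGeo_inl A j (A.J_smooth j))).clm_comp
    contDiffOn_const

theorem CGeo_diff {E F : Type} [NormedAddCommGroup E] [NormedSpace ℝ E] [NormedAddCommGroup F]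
    [NormedSpace ℝ F] {f : E → F} {s : Set E} (hf : ContDiffOn ℝ ∞ f s) (hs : IsOpen s) {x : E}
    (hx : x ∈ s) : HasFDerivAt f (fderiv ℝ f x) x :=
  ((hf.contDiffAt (hs.mem_nhds hx)).differentiableAt (by simp)).hasFDerivAt

theorem CGeo_dJ (hp : p ∈ (A.τ j).target) : HasFDerivAt (A.J j) (fderiv ℝ (A.J j) p) p :=
  CGeo_diff (A.J_smooth j) (A.τ j).open_target hp

theorem CGeo_dJ_fst (hJ : A.JFacts) (hp : p ∈ (A.τ j).target) (a b : V N × ℂ) :
    (fderiv ℝ (A.J j) p a b).1 = fderiv ℝ (JV A j) p.1 a.1 b.1 := by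
  have h1 := ((CGeo_dJ hp).clm_apply (hasFDerivAt_const b p)).fst
  have h2 := ((CGeo_diff (CGeo_JV A j) (A.base_open j) (target_fst hp).1).comp p
    hasFDerivAt_fst).clm_apply (hasFDerivAt_const b.1 p)
  have h3 := h2.congr_of_eventuallyEq (f₁ := fun q => (A.J j q b).1) (by
    filter_upwards [CDer_nhds hp] with q hq
    exact J_fst hJ hq b)
  simpa using congrArg (fun L => L a) (h1.unique h3)

theorem CGeo_dJ_J (hp : p ∈ (A.τ j).target) (a b : V N × ℂ) :
    fderiv ℝ (A.J j) p a (A.J j p b) = -A.J j p (fderiv ℝ (A.J j) p a b) := by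
  have h1 := (CGeo_dJ hp).clm_apply ((CGeo_dJ hp).clm_apply (hasFDerivAt_const b p))
  have h2 := (hasFDerivAt_const (𝕜 := ℝ) (-b) p).congr_of_eventuallyEq
    (f₁ := fun q => A.J j q (A.J j q b)) (by
      filter_upwards [CDer_nhds hp] with q hq
      exact A.J_sq j q hq b)
  have h3 := congrArg (fun L => L a) (h1.unique h2)
  simp only [ContinuousLinearMap.add_apply, ContinuousLinearMap.comp_apply,
    ContinuousLinearMap.flip_apply, ContinuousLinearMap.zero_apply, map_zero, zero_add] at h3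
  exact eq_neg_of_add_eq_zero_right h3

/-- the twisted differential -/
def CGeo_beta (A : Cone (V N) C) (j : A.ι) (q : V N × ℂ) : V N × ℂ →L[ℝ] ℝ :=
  (fderiv ℝ (fun q => Real.log (A.r ((A.τ j).symm q))) q).comp (A.J j q)

theorem CGeo_beta_sm (A : Cone (V N) C) (j : A.ι) :
    ContDiffOn ℝ ∞ (CGeo_beta A j) (A.τ j).target :=
  (CGeo_dphi A j).clm_comp (A.J_smooth j)

theorem CGeo_dbeta (hp : p ∈ (A.τ j).target) (a b : V N × ℂ) :
    fderiv ℝ (CGeo_beta A j) p a b =
      fderiv ℝ (fderiv ℝ fun q => Real.log (A.r ((A.τ j).symm q))) p a (A.J j p b) +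
        fderiv ℝ (fun q => Real.log (A.r ((A.τ j).symm q))) p (fderiv ℝ (A.J j) p a b) := by
  have h := (CGeo_diff (CGeo_dphi A j) (A.τ j).open_target hp).clm_comp (CGeo_dJ hp)
  have e : fderiv ℝ (CGeo_beta A j) p = _ := h.fderiv
  rw [e]
  simp [add_comm]

theorem CGeo_dbeta' (hJ : A.JFacts) (hp : p ∈ (A.τ j).target) (a b : V N × ℂ) :
    fderiv ℝ (CGeo_beta A j) p a b =
      fderiv ℝ (AV A j) p.1 a.1 b.1 + (a.2 * b.2 / p.2 ^ 2).im := by
  have h1 := (CGeo_diff (CGeo_beta_sm A j) (A.τ j).open_target hp).clm_apply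
    (hasFDerivAt_const b p)
  have h2 := ((CGeo_diff (CGeo_AV A j) (A.base_open j) (target_fst hp).1).comp p
    hasFDerivAt_fst).clm_apply (hasFDerivAt_const b.1 p)
  have h3 : HasDerivAt (fun z : ℂ => b.2 / z) (-(b.2 / p.2 ^ 2)) p.2 := by
    have := (hasDerivAt_inv (target_fst hp).2).const_mul b.2
    simpa [div_eq_mul_inv] using this
  have h4 := Complex.imCLM.hasFDerivAt.comp p
    ((h3.hasFDerivAt.restrictScalars ℝ).comp p (hasFDerivAt_snd (𝕜 := ℝ)))
  have h5 := (h2.sub h4).congr_of_eventuallyEq (f₁ := fun q => CGeo_beta A j q b) (by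
    filter_upwards [CDer_nhds hp] with q hq
    exact dlog_r_J hJ hq b)
  have h6 := congrArg (fun L => L a) (h1.unique h5)
  simp only [ContinuousLinearMap.add_apply, ContinuousLinearMap.comp_apply,
    ContinuousLinearMap.flip_apply, ContinuousLinearMap.zero_apply, map_zero, zero_add,
    ContinuousLinearMap.sub_apply, ContinuousLinearMap.coe_fst', ContinuousLinearMap.coe_snd',
    ContinuousLinearMap.coe_restrictScalars', ContinuousLinearMap.toSpanSingleton_apply,
    smul_eq_mul, Complex.imCLM_apply] at h6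
  rw [h6, mul_neg, Complex.neg_im, sub_neg_eq_add, mul_div_assoc]

theorem CGeo_cur (hJ : A.JFacts) (hp : p ∈ (A.τ j).target) (a b : V N × ℂ) :
    fderiv ℝ (CGeo_beta A j) p a b - fderiv ℝ (CGeo_beta A j) p b a =
      cur (AV A j) p.1 a.1 b.1 := by
  rw [CGeo_dbeta' hJ hp, CGeo_dbeta' hJ hp, cur, mul_comm a.2]
  ring

theorem CGeo_11 (hJ : A.JFacts) (hp : p ∈ (A.τ j).target) (a b : V N × ℂ) :
    fderiv ℝ (CGeo_beta A j) p (A.J j p a) (A.J j p b) -
      fderiv ℝ (CGeo_beta A j) p (A.J j p b) (A.J j p a) =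
    fderiv ℝ (CGeo_beta A j) p a b - fderiv ℝ (CGeo_beta A j) p b a := by
  have hs := (((CGeo_phi A j).contDiffAt ((A.τ j).open_target.mem_nhds hp)).isSymmSndFDerivAt
    (by simp; exact BdC_le 2)).eq
  have h1 := congrArg (fun z => fderiv ℝ (fun q => Real.log (A.r ((A.τ j).symm q))) p (A.J j p z))
    (hJ.nij j p hp a b)
  simp only [map_add, map_sub, A.J_sq j p hp, map_neg, map_zero] at h1
  simp only [CGeo_dbeta hp, CGeo_dJ_J hp, A.J_sq j p hp, map_neg]
  rw [hs (A.J j p a) b, hs (A.J j p b) a]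
  linarith

end

theorem geo {A : Cone (V N) C} (hJ : A.JFacts) (j : A.ι) : Geo (JV A j) (AV A j) (A.base j) := by
  refine ⟨A.base_open j, CGeo_JV A j, CGeo_AV A j, fun y hy v => (CDer_sq hJ hy v).1,
    fun y hy v w => ?_, fun y hy v w => ?_, fun y hy v hv => ?_⟩
  · have hp := mem_target hy one_ne_zero
    have h := congrArg Prod.fst (hJ.nij j _ hp (v, 0) (w, 0))
    simpa only [Prod.fst_add, Prod.fst_sub, Prod.fst_zero, CGeo_dJ_fst hJ hp, J_fst hJ hp] using h
  · have hp := mem_target hy one_ne_zero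
    have h := CGeo_11 hJ hp (v, 0) (w, 0)
    rwa [CGeo_cur hJ hp, CGeo_cur hJ hp, J_fst hJ hp, J_fst hJ hp] at h
  · have hp := mem_target hy one_ne_zero
    have h := CGeo_cur hJ hp (v, 0) (A.J j (y, 1) (v, 0))
    rw [J_fst hJ hp] at h
    exact h.symm.trans_lt (A.psh j _ hp (v, 0) hv)

end Vale.Agent.P292E
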