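import Vale.Agent.P292E.CDer

/-! Changes of the unitary frame. -/

set_option maxSynthPendingDepth 3

open scoped ContDiff Topology ComplexConjugate
open Set Filter MeasureTheory Metric
open Vale.Agent.P292 (Cone)

noncomputable section

namespace Vale.Agent.P292E

variable {N : ℕ} {C : Type} [TopologicalSpace C]

variable {A : Cone (V N) C}

/-- the unitary frame in the chart -/
def CTr_io (A : Cone (V N) C) (a : A.ι) (y : V N) : V N × ℂ := (y, ((hh A a y : ℝ) : ℂ)⁻¹)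

theorem CTr_mem {a : A.ι} {y : V N} (hy : y ∈ A.base a) : CTr_io A a y ∈ (A.τ a).target :=
  mem_target hy (inv_ne_zero (by exact_mod_cast (hh_pos A a y).ne'))

theorem CTr_sm (a : A.ι) : ContDiffOn ℝ ∞ (CTr_io A a) (A.base a) :=
  contDiffOn_id.prodMk ((Complex.ofRealCLM.contDiff.comp_contDiffOn (hh_sm A a)).inv
    fun y _ => by
      show ((hh A a y : ℝ) : ℂ) ≠ 0
      exact_mod_cast (hh_pos A a y).ne')

theorem CTr_Tsm (a b : A.ι) : ContDiffOn ℝ ∞ (fun y => A.τ b (sg A a y))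
    {y | y ∈ A.base a ∧ sg A a y ∈ (A.τ b).source} :=
  (A.smooth b a).comp ((CTr_sm a).mono fun _ h => h.1) fun _ h => ⟨CTr_mem h.1, h.2⟩

theorem Wc_open (a b : A.ι) : IsOpen {y | y ∈ A.base a ∧ sg A a y ∈ (A.τ b).source} :=
  (sg_cont A a).isOpen_inter_preimage (A.base_open a) (A.τ b).open_source

theorem zc_sm (a b : A.ι) : ContDiffOn ℝ ∞ (fun y => zc A b (sg A a y))
    {y | y ∈ A.base a ∧ sg A a y ∈ (A.τ b).source} := (CTr_Tsm a b).fst

theorem lu_sm (a b : A.ι) : ContDiffOn ℝ ∞ (fun y => lu A b (sg A a y))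
    {y | y ∈ A.base a ∧ sg A a y ∈ (A.τ b).source} :=
  (CTr_Tsm a b).snd.mul (Complex.ofRealCLM.contDiff.comp_contDiffOn
    ((hh_sm A b).comp (zc_sm a b) fun _ h => zc_mem h.2))

theorem cl_open [T2Space C] (a b : A.ι) {K : Set (V N)} (hK : IsCompact K) (hKb : K ⊆ A.base b) :
    IsOpen {y | y ∈ A.base a ∧ ¬(sg A a y ∈ (A.τ b).source ∧ zc A b (sg A a y) ∈ K)} := by
  have hc : IsCompact ((fun q : V N × ℂ => A.act q.2 (sg A b q.1)) '' K ×ˢ sphere 0 1) := by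
    refine (hK.prod (isCompact_sphere 0 1)).image_of_continuousOn ?_
    refine A.act_cont.comp (f := fun q : V N × ℂ => (q.2, sg A b q.1))
      (continuousOn_snd.prodMk ((sg_cont A b).comp continuousOn_fst fun q hq => hKb hq.1))
      fun q hq => ?_
    exact ne_zero_of_mem_sphere one_ne_zero ⟨q.2, hq.2⟩
  have ho := (sg_cont A a).isOpen_inter_preimage (A.base_open a) hc.isClosed.isOpen_compl
  suffices h : {y | y ∈ A.base a ∧ ¬(sg A a y ∈ (A.τ b).source ∧ zc A b (sg A a y) ∈ K)} =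
      A.base a ∩ sg A a ⁻¹' ((fun q : V N × ℂ => A.act q.2 (sg A b q.1)) '' K ×ˢ sphere 0 1)ᶜ by
    rwa [h]
  ext y
  refine and_congr_right fun hy => not_congr ⟨fun h => ?_, ?_⟩
  · refine ⟨(zc A b (sg A a y), lu A b (sg A a y)), ⟨h.2, ?_⟩, act_lu h.1⟩
    rw [mem_sphere_zero_iff_norm, norm_lu h.1, r_sg hy]
  · rintro ⟨q, hq, e⟩
    have h0 : q.2 ≠ 0 := ne_zero_of_mem_sphere one_ne_zero ⟨q.2, hq.2⟩
    have h1 := sg_mem (hKb hq.1)
    rw [← e]
    refine ⟨(act_mem_iff h0).2 h1, ?_⟩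
    rw [zc_act h1 h0, zc_sg (hKb hq.1)]
    exact hq.1

theorem CTr_nhds {a b : A.ι} {p : V N × ℂ} (hp : p ∈ (A.τ a).target)
    (hb : (A.τ a).symm p ∈ (A.τ b).source) :
    (A.τ a).target ∩ (A.τ a).symm ⁻¹' (A.τ b).source ∈ 𝓝 p :=
  ((A.τ a).continuousOn_symm.isOpen_inter_preimage (A.τ a).open_target
    (A.τ b).open_source).mem_nhds ⟨hp, hb⟩

theorem CTr_Td {a b : A.ι} {p : V N × ℂ} (hp : p ∈ (A.τ a).target)
    (hb : (A.τ a).symm p ∈ (A.τ b).source) : DifferentiableAt ℝ (A.τ b ∘ (A.τ a).symm) p :=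
  ((A.smooth b a).contDiffAt (CTr_nhds hp hb)).differentiableAt (by simp)

theorem CTr_vert {a b : A.ι} {p : V N × ℂ} (hp : p ∈ (A.τ a).target)
    (hb : (A.τ a).symm p ∈ (A.τ b).source) (μ : ℂ) :
    (fderiv ℝ (A.τ b ∘ (A.τ a).symm) p (0, μ)).1 = 0 := by
  have h0 := (target_fst hp).2
  have hγ : HasDerivAt (fun s : ℝ => p + s • ((0, μ) : V N × ℂ)) (0, μ) 0 := by
    simpa using ((hasDerivAt_id (0 : ℝ)).smul_const ((0, μ) : V N × ℂ)).const_add p
  have h1 := (ContinuousLinearMap.fst ℝ (V N) ℂ).hasFDerivAt.comp_hasDerivAt 0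
    ((CTr_Td hp hb).hasFDerivAt.comp_hasDerivAt_of_eq 0 hγ (by simp))
  have h2 : ∀ᶠ s : ℝ in 𝓝 0, p.2 + s • μ ≠ 0 :=
    ContinuousAt.eventually_ne (by fun_prop) (by simpa using h0)
  have h3 : (fun s : ℝ => (((A.τ b ∘ (A.τ a).symm) ∘
      fun s : ℝ => p + s • ((0, μ) : V N × ℂ)) s).1) =ᶠ[𝓝 0]
      fun _ => (A.τ b ((A.τ a).symm p)).1 := by
    filter_upwards [h2] with s hs
    have e : p + s • ((0, μ) : V N × ℂ) = (p.1, (p.2 + s • μ) / p.2 * p.2) := by
      rw [div_mul_cancel₀ _ h0]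
      ext1 <;> simp
    simp only [Function.comp]
    rw [e, symm_act hp (div_ne_zero hs h0), A.act_eq b _ hb _ (div_ne_zero hs h0)]
  exact (h1.congr_of_eventuallyEq h3.symm).unique (hasDerivAt_const _ _)

theorem CTr_hd {a : A.ι} {y : V N} (hy : y ∈ A.base a) : DifferentiableAt ℝ (hh A a) y :=
  ((hh_sm A a).contDiffAt ((A.base_open a).mem_nhds hy)).differentiableAt (by simp)

theorem CTr_log {a : A.ι} {y : V N} (hy : y ∈ A.base a) (v : V N) :
    fderiv ℝ (fun y => Real.log (hh A a y)) y v = (hh A a y)⁻¹ * fderiv ℝ (hh A a) y v := by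
  rw [((CTr_hd hy).hasFDerivAt.log (hh_pos A a y).ne').fderiv]
  rfl

theorem CTr_der {a : A.ι} {y : V N} (hy : y ∈ A.base a) :
    ∃ w : V N →L[ℝ] V N × ℂ, HasFDerivAt (CTr_io A a) w y ∧
      ∀ v, w v = (v, ((-(hh A a y ^ 2)⁻¹ * fderiv ℝ (hh A a) y v : ℝ) : ℂ)) := by
  have h1 := (hasDerivAt_inv (hh_pos A a y).ne').comp_hasFDerivAt y (CTr_hd hy).hasFDerivAt
  have h2 := (hasFDerivAt_id y).prodMk (Complex.ofRealCLM.hasFDerivAt.comp y h1)
  refine ⟨_, h2.congr_of_eventuallyEq (Eventually.of_forall fun z => ?_), fun v => rfl⟩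
  simp [CTr_io]

theorem CTr_zc {a b : A.ι} {y : V N} (hy : y ∈ A.base a) (hb : sg A a y ∈ (A.τ b).source)
    {w : V N →L[ℝ] V N × ℂ} (hw : HasFDerivAt (CTr_io A a) w y) (v : V N) :
    fderiv ℝ (fun y => zc A b (sg A a y)) y v =
      (fderiv ℝ (A.τ b ∘ (A.τ a).symm) (CTr_io A a y) (w v)).1 := by
  have h := ((CTr_Td (CTr_mem hy) hb).hasFDerivAt.comp y hw).fst
  exact congrArg (fun L : V N →L[ℝ] V N => L v) h.fderiv

theorem JV_tr (hJ : A.JFacts) (a b : A.ι) {y : V N} (hy : y ∈ A.base a)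
    (hb : sg A a y ∈ (A.τ b).source) (v : V N) :
    fderiv ℝ (fun y => zc A b (sg A a y)) y (JV A a y v) =
      JV A b (zc A b (sg A a y)) (fderiv ℝ (fun y => zc A b (sg A a y)) y v) := by
  obtain ⟨w, hw, hwv⟩ := CTr_der hy
  have hp := CTr_mem hy
  rw [CTr_zc hy hb hw, CTr_zc hy hb hw]
  have h1 := (congrArg Prod.fst (hJ.compat b a _ hp hb (w v))).trans
    (J_fst hJ ((A.τ b).map_source hb) _)
  refine Eq.trans ?_ h1
  have e : w (JV A a y v) = A.J a (CTr_io A a y) (w v) +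
      (0, (w (JV A a y v)).2 - (A.J a (CTr_io A a y) (w v)).2) := by
    ext1
    · rw [Prod.fst_add, J_fst hJ hp, add_zero, hwv, hwv]
      rfl
    · simp
  rw [e, map_add, Prod.fst_add, CTr_vert hp hb, add_zero]

theorem CTr_tt (hJ : A.JFacts) {a b : A.ι} {p : V N × ℂ} (hp : p ∈ (A.τ a).target)
    (hb : (A.τ a).symm p ∈ (A.τ b).source) (w : V N × ℂ) :
    tt A b (A.τ b ((A.τ a).symm p)) (fderiv ℝ (A.τ b ∘ (A.τ a).symm) p w) = tt A a p w := by
  have hq := (A.τ b).map_source hb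
  have hL : DifferentiableAt ℝ (fun q => Real.log (A.r ((A.τ b).symm q)))
      (A.τ b ((A.τ a).symm p)) :=
    (((A.r_smooth b).contDiffAt ((A.τ b).open_target.mem_nhds hq)).differentiableAt
      (by simp)).log (A.r_pos _).ne'
  have he : (fun q => Real.log (A.r ((A.τ a).symm q))) =ᶠ[𝓝 p]
      (fun q => Real.log (A.r ((A.τ b).symm q))) ∘ (A.τ b ∘ (A.τ a).symm) := by
    filter_upwards [CTr_nhds hp hb] with q hq'
    simp only [Function.comp]
    rw [(A.τ b).left_inv hq'.2]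
  have key : ∀ u, fderiv ℝ (fun q => Real.log (A.r ((A.τ a).symm q))) p u =
      fderiv ℝ (fun q => Real.log (A.r ((A.τ b).symm q))) (A.τ b ((A.τ a).symm p))
        (fderiv ℝ (A.τ b ∘ (A.τ a).symm) p u) := by
    intro u
    rw [he.fderiv_eq, fderiv_comp p hL (CTr_Td hp hb)]
    rfl
  have h1 := key w
  have h2 := key (A.J a p w)
  rw [hJ.compat b a p hp hb, dlog_r_J hJ hp, dlog_r_J hJ hq] at h2
  rw [dlog_r hp, dlog_r hq] at h1
  apply Complex.ext
  · simp only [tt, Complex.sub_re, Complex.add_re, Complex.ofReal_re, Complex.mul_re,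
      Complex.I_re, Complex.I_im, Complex.ofReal_im]
    linarith
  · simp only [tt, Complex.sub_im, Complex.add_im, Complex.ofReal_re, Complex.mul_im,
      Complex.I_re, Complex.I_im, Complex.ofReal_im]
    linarith

theorem AV_tr (hJ : A.JFacts) (a b : A.ι) {y : V N} (hy : y ∈ A.base a)
    (hb : sg A a y ∈ (A.τ b).source) (v : V N) :
    fderiv ℝ (fun y => lu A b (sg A a y)) y v = Complex.I * lu A b (sg A a y) *
      ((AV A b (zc A b (sg A a y)) (fderiv ℝ (fun y => zc A b (sg A a y)) y v) : ℝ) -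
        (AV A a y v : ℝ)) := by
  obtain ⟨w, hw, hwv⟩ := CTr_der hy
  have hp := CTr_mem hy
  have hq := target_fst ((A.τ b).map_source hb)
  have hT := (CTr_Td hp hb).hasFDerivAt.comp y hw
  have h1 := hT.snd.mul (Complex.ofRealCLM.hasFDerivAt.comp y
    ((CTr_hd hq.1).hasFDerivAt.comp y hT.fst))
  have h2 : fderiv ℝ (fun y => lu A b (sg A a y)) y v =
      (A.τ b (sg A a y)).2 * (fderiv ℝ (hh A b) (A.τ b (sg A a y)).1
        (fderiv ℝ (A.τ b ∘ (A.τ a).symm) (CTr_io A a y) (w v)).1 : ℝ) +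
      (hh A b (A.τ b (sg A a y)).1 : ℝ) *
        (fderiv ℝ (A.τ b ∘ (A.τ a).symm) (CTr_io A a y) (w v)).2 :=
    congrArg (fun L : V N →L[ℝ] ℂ => L v) h1.fderiv
  have h3 : tt A b (A.τ b (sg A a y)) _ = _ := CTr_tt hJ hp hb (w v)
  rw [h2, CTr_zc hy hb hw]
  generalize fderiv ℝ (A.τ b ∘ (A.τ a).symm) (CTr_io A a y) (w v) = W at h3 ⊢
  have ha0 : ((hh A a y : ℝ) : ℂ) ≠ 0 := by exact_mod_cast (hh_pos A a y).ne'
  have hb0 : ((hh A b (A.τ b (sg A a y)).1 : ℝ) : ℂ) ≠ 0 := by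
    exact_mod_cast (hh_pos A b _).ne'
  have h4 : tt A a (CTr_io A a y) (w v) = -(Complex.I * (AV A a y v : ℝ)) := by
    rw [hwv]
    simp only [tt, CTr_io]
    rw [CTr_log hy]
    push_cast
    field_simp
    ring
  rw [h4, tt, CTr_log hq.1] at h3
  push_cast at h3
  have h5 := hq.2
  simp only [lu, zc]
  field_simp at h3
  linear_combination h3

end Vale.Agent.P292E
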