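import Vale.Agent.P292E.PkPsi

/-! From the mean to the first order jet. -/

set_option maxSynthPendingDepth 3

open scoped ContDiff Topology ComplexConjugate
open Set Filter MeasureTheory Metric

noncomputable section

namespace Vale.Agent.P292E

variable {N : ℕ}

variable {J : V N → V N →L[ℝ] V N} {A : V N → V N →L[ℝ] ℝ} {B : Set (V N)} {x₀ : V N}
  {ψ : V N → ℂ} {c : ℝ}

theorem PkLoc_int {G : V N → ℝ} {δ ρ : ℝ} (h0 : ∀ y, 0 ≤ G y)
    (hG : ContinuousOn G (closedBall x₀ δ)) (hρ : 0 < ρ) (hδ : 3 * ρ ≤ δ) :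
    ∫ y in ball (0 : V N) 3, G (x₀ + ρ • y) ≤ (ρ ^ N)⁻¹ * ∫ y in closedBall x₀ δ, G y := by
  have h1 := Measure.setIntegral_comp_smul_of_pos (volume : Measure (V N)) (fun z => G (x₀ + z))
    (ball (0 : V N) 3) hρ
  rw [finrank_euclideanSpace_fin, smul_eq_mul] at h1
  rw [h1]
  refine mul_le_mul_of_nonneg_left ?_ (by positivity)
  have h2 := (measurePreserving_add_left (volume : Measure (V N)) x₀).setIntegral_preimage_emb
    (measurableEmbedding_addLeft x₀) G (closedBall x₀ δ)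
  rw [← h2]
  have h3 : (fun z => x₀ + z) ⁻¹' closedBall x₀ δ = closedBall 0 δ := by
    ext z
    simp [dist_eq_norm]
  rw [h3]
  refine setIntegral_mono_set ?_ (Eventually.of_forall fun z => h0 _)
    (LE.le.eventuallyLE ?_)
  · refine ContinuousOn.integrableOn_compact (isCompact_closedBall _ _) ?_
    exact hG.comp (by fun_prop) fun z hz => by rwa [← h3] at hz
  · rw [_root_.smul_ball hρ.ne', smul_zero, Real.norm_of_nonneg hρ.le]
    exact ball_subset_closedBall.trans (closedBall_subset_closedBall (by linarith))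

theorem PkLoc_L1 {G : V N → ℝ} {η e : ℝ} (hG : ContinuousOn G (closedBall 0 3)) (hη : 0 ≤ η)
    (he : 0 < e) (hηe : η ≤ e) (h : ∫ y in ball (0 : V N) 3, G y ^ 2 ≤ η ^ 2) :
    ∫ y in ball (0 : V N) 3, G y ≤ (1 + (volume : Measure (V N)).real (ball 0 3)) * e := by
  have i1 : IntegrableOn G (ball (0 : V N) 3) :=
    (hG.integrableOn_compact (isCompact_closedBall _ _)).mono_set ball_subset_closedBall
  have i2 : IntegrableOn (fun y => e⁻¹ * G y ^ 2) (ball (0 : V N) 3) :=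
    ((continuousOn_const.mul (hG.pow 2)).integrableOn_compact (isCompact_closedBall _ _)).mono_set
      ball_subset_closedBall
  have i3 : IntegrableOn (fun _ => e) (ball (0 : V N) 3) :=
    (continuousOn_const.integrableOn_compact (isCompact_closedBall _ _)).mono_set
      ball_subset_closedBall
  have h1 : ∫ y in ball (0 : V N) 3, G y ≤ ∫ y in ball (0 : V N) 3, (e⁻¹ * G y ^ 2 + e) := by
    refine integral_mono i1 (i2.add i3) fun y => ?_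
    have h2 : e * (e⁻¹ * G y ^ 2 + e) = G y ^ 2 + e ^ 2 := by field_simp
    refine le_of_mul_le_mul_left ?_ he
    rw [h2]
    nlinarith [sq_nonneg (G y - e), sq_nonneg (G y), sq_nonneg e]
  rw [integral_add i2 i3, integral_const_mul, setIntegral_const, smul_eq_mul] at h1
  have h3 : e⁻¹ * ∫ y in ball (0 : V N) 3, G y ^ 2 ≤ e := by
    rw [inv_mul_le_iff₀ he]
    nlinarith
  linarith

/-- the function in the frame of the phase -/
def PkLoc_P (ψ : V N → ℂ) (k : ℕ) (F : V N → ℂ) (y : V N) : ℂ := F y * Complex.exp (-(k * ψ y))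

theorem PkLoc_eq (ψ : V N → ℂ) (k : ℕ) (F : V N → ℂ) :
    F = fun y => PkLoc_P ψ k F y * Complex.exp (k * ψ y) := by
  funext y
  rw [PkLoc_P, mul_assoc, ← Complex.exp_add, neg_add_cancel, Complex.exp_zero, mul_one]

theorem PkLoc_sm (hψ : ContDiff ℝ ∞ ψ) (k : ℕ) {F : V N → ℂ} (hF : ContDiffOn ℝ ∞ F B) :
    ContDiffOn ℝ ∞ (PkLoc_P ψ k F) B :=
  hF.mul (contDiff_const.mul hψ).neg.cexp.contDiffOn

theorem PkLoc_sys (hψ : ContDiff ℝ ∞ ψ) {k : ℕ} {F : V N → ℂ} {y : V N}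
    (hP : DifferentiableAt ℝ (PkLoc_P ψ k F) y) {w : V N} (h : Dbv J A k F y w = 0) :
    fderiv ℝ (PkLoc_P ψ k F) y w + Complex.I * fderiv ℝ (PkLoc_P ψ k F) y (J y w) +
      k * Ef J A ψ y w * PkLoc_P ψ k F y = 0 := by
  have h1 := Dbv_exp (J := J) (A := A) k hP (hψ.differentiable (by simp) y) w
  rw [← PkLoc_eq, h] at h1
  exact (mul_eq_zero.1 h1.symm).resolve_left (Complex.exp_ne_zero _)

theorem PkLoc_Dv (hψ : Psi J A x₀ ψ c) {k : ℕ} {F : V N → ℂ}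
    (hP : DifferentiableAt ℝ (PkLoc_P ψ k F) x₀) (w : V N) :
    Dv A k F x₀ w = fderiv ℝ (PkLoc_P ψ k F) x₀ w := by
  have h1 := hP.hasFDerivAt.mul
    (((hψ.sm.differentiable (by simp) x₀).hasFDerivAt.const_mul (k : ℂ)).cexp)
  have h2 : HasFDerivAt F _ x₀ :=
    h1.congr_of_eventuallyEq (Eventually.of_forall fun y => congrFun (PkLoc_eq ψ k F) y)
  rw [Dv, h2.fderiv]
  simp only [ContinuousLinearMap.add_apply, ContinuousLinearMap.smul_apply, smul_eq_mul, hψ.der,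
    hψ.zero, PkLoc_P, mul_zero, neg_zero, Complex.exp_zero]
  ring

theorem PkLoc_norm (hψ : Psi J A x₀ ψ c) {k : ℕ} {ρ : ℝ} (hk : √k * ρ = 1) (hk2 : k * ρ ^ 2 = 1)
    (α : ℂ) (ℓ : V N →L[ℝ] ℂ) (F : V N → ℂ) {y : V N} (hy : y ∈ ball (0 : V N) 3) :
    ‖PkLoc_P ψ k F (x₀ + ρ • y) - (α + ℓ y)‖ ≤
      Real.exp (9 * c⁻¹) * ‖F (x₀ + ρ • y) - pk ψ x₀ k α ℓ (x₀ + ρ • y)‖ := by
  have h1 : PkLoc_P ψ k F (x₀ + ρ • y) - (α + ℓ y) = Complex.exp (-(k * ψ (x₀ + ρ • y))) *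
      (F (x₀ + ρ • y) - pk ψ x₀ k α ℓ (x₀ + ρ • y)) := by
    have h2 : ((√k : ℝ) : ℂ) * ρ = 1 := by exact_mod_cast hk
    have h3 : Complex.exp (-(k * ψ (x₀ + ρ • y))) * Complex.exp (k * ψ (x₀ + ρ • y)) = 1 := by
      rw [← Complex.exp_add, neg_add_cancel, Complex.exp_zero]
    rw [PkLoc_P, pk, add_sub_cancel_left, map_smul, Complex.real_smul, ← mul_assoc, h2, one_mul]
    linear_combination (α + ℓ y) * h3
  rw [h1, norm_mul, Complex.norm_exp]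
  refine mul_le_mul_of_nonneg_right (Real.exp_le_exp.2 ?_) (norm_nonneg _)
  have h4 := hψ.low (x₀ + ρ • y)
  rw [add_sub_cancel_left, norm_smul, mul_pow, Real.norm_eq_abs, sq_abs] at h4
  have h5 : ‖y‖ ^ 2 ≤ 9 := by nlinarith [mem_ball_zero_iff.1 hy, norm_nonneg y]
  have h6 := inv_pos.2 hψ.pos
  have h7 := mul_le_mul_of_nonneg_left h4 (Nat.cast_nonneg k : (0 : ℝ) ≤ k)
  have h8 : (k : ℝ) * (-c⁻¹ * (ρ ^ 2 * ‖y‖ ^ 2)) = -(c⁻¹ * ‖y‖ ^ 2) := by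
    linear_combination -(c⁻¹ * ‖y‖ ^ 2) * hk2
  rw [Complex.neg_re, Complex.mul_re, Complex.natCast_re, Complex.natCast_im, zero_mul, sub_zero]
  nlinarith

theorem PkLoc_fd {P : V N → ℂ} {ρ : ℝ} {y : V N} (hP : DifferentiableAt ℝ P (x₀ + ρ • y)) (α : ℂ)
    (ℓ : V N →L[ℝ] ℂ) (w : V N) : fderiv ℝ (fun y => P (x₀ + ρ • y) - (α + ℓ y)) y w =
      ρ * fderiv ℝ P (x₀ + ρ • y) w - ℓ w := by
  have h1 : HasFDerivAt (fun y : V N => x₀ + ρ • y) (ρ • ContinuousLinearMap.id ℝ (V N)) y :=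
    ((hasFDerivAt_id y).const_smul ρ).const_add x₀
  have h2 := (hP.hasFDerivAt.comp y h1).sub (ℓ.hasFDerivAt.const_add α)
  have h3 : HasFDerivAt (fun y => P (x₀ + ρ • y) - (α + ℓ y)) _ y := h2
  rw [h3.fderiv]
  simp

/-- the functional of the error term -/
def PkLoc_L (ℓ : V N →L[ℝ] ℂ) (p : Fin N) : (V N →L[ℝ] V N) →L[ℝ] ℂ :=
  (Complex.I • ℓ).comp (ContinuousLinearMap.apply ℝ (V N) (ee p))

theorem PkLoc_L_le {ℓ : V N →L[ℝ] ℂ} (h : ‖ℓ‖ ≤ 1) (p : Fin N) : ‖PkLoc_L ℓ p‖ ≤ 1 := by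
  refine ContinuousLinearMap.opNorm_le_bound _ zero_le_one fun T => ?_
  have h1 : PkLoc_L ℓ p T = Complex.I * ℓ (T (ee p)) := rfl
  have h2 : ‖T (ee p)‖ ≤ ‖T‖ := by simpa [ee] using T.le_opNorm (ee p)
  rw [h1, norm_mul, Complex.norm_I, one_mul]
  exact (ℓ.le_opNorm _).trans (mul_le_mul h h2 (norm_nonneg _) zero_le_one)

theorem pk_loc (hS : SysS N) (h : Geo J A B) (hψ : Psi J A x₀ ψ c) {δ : ℝ} (hδ : 0 < δ)
    (hB : closedBall x₀ δ ⊆ B) : ∃ (k₀ : ℕ) (C : ℝ), 0 ≤ C ∧ ∀ k, k₀ ≤ k →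
      ∀ (α : ℂ) (ℓ : V N →L[ℝ] ℂ), ‖α‖ ≤ 1 → ‖ℓ‖ ≤ 1 → (∀ v, ℓ (J x₀ v) = Complex.I * ℓ v) →
      ∀ (F : V N → ℂ) (η : ℝ), 0 ≤ η → ContDiffOn ℝ ∞ F B → (∀ y ∈ B, ∀ v, Dbv J A k F y v = 0) →
        ∫ y in closedBall x₀ δ, ‖F y - pk ψ x₀ k α ℓ y‖ ^ 2 ≤ η ^ 2 * (√k)⁻¹ ^ N →
        ‖F x₀ - α‖ ≤ C * (η + (√k)⁻¹) ∧
          ∀ v, ‖Dv A k F x₀ v - (√k : ℝ) * ℓ v‖ ≤ C * (η + (√k)⁻¹) * √k * ‖v‖ := by
  have hx : x₀ ∈ B := hB (mem_closedBall_self hδ.le)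
  obtain ⟨M, hM⟩ := hS
  obtain ⟨C₁, ρ₁, hC₁, hρ₁, -, H1⟩ := Bd_scale M 1 (f := fun y => J y - J x₀) h.opn
    (h.J_sm.sub contDiffOn_const) hx fun n hn => by
      obtain rfl : n = 0 := by omega
      ext
      simp
  choose Cp ρp hCp hρp _ H2 using fun p =>
    Bd_scale M 2 h.opn (Ef_sm h hψ.sm (ee p)) hx (hψ.err p)
  obtain ⟨C₂, hC₂, hC₂'⟩ : ∃ C₂, 0 ≤ C₂ ∧ ∀ p, 2 ^ M * Cp p ≤ C₂ :=
    ⟨∑ p, 2 ^ M * Cp p, Finset.sum_nonneg fun p _ => mul_nonneg (by positivity) (hCp p),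
      fun p => Finset.single_le_sum (f := fun p => 2 ^ M * Cp p)
        (fun p _ => mul_nonneg (by positivity) (hCp p)) (Finset.mem_univ p)⟩
  obtain ⟨ε, C, hε, H3⟩ := hM (‖J x₀‖ + C₂)
  have ht : Tendsto (fun k : ℕ => (√k : ℝ)⁻¹) atTop (𝓝 0) :=
    (Real.tendsto_sqrt_atTop.comp tendsto_natCast_atTop_atTop).inv_tendsto_atTop
  have ht' : Tendsto (fun k : ℕ => C₁ * (√k : ℝ)⁻¹) atTop (𝓝 0) := by
    simpa using ht.const_mul C₁
  obtain ⟨k₀, hk₀⟩ := eventually_atTop.1 ((eventually_ge_atTop 1).and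
    ((ht.eventually_le_const hρ₁).and ((eventually_all.2 fun p => ht.eventually_le_const (hρp p)).and
    ((ht'.eventually_le_const hε).and (ht.eventually_le_const (by positivity : 0 < δ / 3))))))
  obtain ⟨CA, hCA⟩ : ∃ CA, CA = Real.exp (9 * c⁻¹) *
    (1 + (volume : Measure (V N)).real (ball 0 3)) := ⟨_, rfl⟩
  obtain ⟨CB, hCB⟩ : ∃ CB, CB = C₁ + 2 ^ M * C₂ * 4 := ⟨_, rfl⟩
  refine ⟨k₀, |C * (CA + CB)|, abs_nonneg _, fun k hk α ℓ hα hℓ hJ F η hη hF hD hI => ?_⟩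
  obtain ⟨k1, r1, r2, r3, r4⟩ := hk₀ k hk
  have k2 : (1 : ℝ) ≤ k := by exact_mod_cast k1
  have k3 : 1 ≤ √(k : ℝ) := Real.one_le_sqrt.2 k2
  have k4 : √(k : ℝ) * (√(k : ℝ))⁻¹ = 1 := mul_inv_cancel₀ (by positivity)
  have k5 : (k : ℝ) * (√(k : ℝ))⁻¹ ^ 2 = 1 := by
    rw [inv_pow, Real.sq_sqrt (by positivity), mul_inv_cancel₀ (by positivity)]
  have ρ0 : 0 < (√(k : ℝ))⁻¹ := by positivity
  have ρ1 : (√(k : ℝ))⁻¹ ≤ 1 := inv_le_one_of_one_le₀ k3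
  generalize (√(k : ℝ))⁻¹ = ρ at *
  have hm : MapsTo (fun y : V N => x₀ + ρ • y) (closedBall 0 3) (closedBall x₀ δ) := fun y hy => by
    rw [mem_closedBall, dist_eq_norm, add_sub_cancel_left, norm_smul, Real.norm_of_nonneg ρ0.le]
    nlinarith [mem_closedBall_zero_iff.1 hy]
  have hm' : ∀ y ∈ ball (0 : V N) 3, x₀ + ρ • y ∈ B := fun y hy =>
    hB (hm (ball_subset_closedBall hy))
  have hP := PkLoc_sm hψ.sm k hF
  have hd : ∀ y ∈ B, DifferentiableAt ℝ (PkLoc_P ψ k F) y := fun y hy =>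
    (hP.contDiffAt (h.opn.mem_nhds hy)).differentiableAt (by simp)
  have s0 : ContDiff ℝ ∞ fun y : V N => x₀ + ρ • y := by fun_prop
  have s1 : ContDiffOn ℝ ∞ (fun y : V N => α + ℓ y) (ball 0 3) :=
    (contDiff_const.add ℓ.contDiff).contDiffOn
  have b1 : Bd M (fun y : V N => α + ℓ y) (ball 0 3) 4 :=
    ((Bd_const M α _).add isOpen_ball contDiffOn_const ℓ.contDiff.contDiffOn (Bd_lin M ℓ)).mono
      le_rfl subset_rfl (by linarith)
  obtain ⟨s2, b2⟩ := H1 ρ ρ0 r1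
  have s3 : ∀ p, ContDiffOn ℝ ∞ (fun y : V N => ((ρ * k : ℝ) : ℂ) * Ef J A ψ (x₀ + ρ • y) (ee p))
      (ball 0 3) := fun p => contDiffOn_const.mul (H2 p ρ ρ0 (r2 p)).1
  have b3 : ∀ p, Bd M (fun y : V N => ((ρ * k : ℝ) : ℂ) * Ef J A ψ (x₀ + ρ • y) (ee p))
      (ball 0 3) (C₂ * ρ) := fun p => by
    refine ((Bd_const M _ _).mul isOpen_ball contDiffOn_const (H2 p ρ ρ0 (r2 p)).1
      (H2 p ρ ρ0 (r2 p)).2).mono le_rfl subset_rfl ?_
    rw [Complex.norm_real, Real.norm_of_nonneg (by positivity)]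
    calc _ = 2 ^ M * Cp p * ρ * (k * ρ ^ 2) := by ring
      _ ≤ _ := by rw [k5, mul_one]; exact mul_le_mul_of_nonneg_right (hC₂' p) ρ0.le
  have s4 : ∀ p, ContDiffOn ℝ ∞ (fun y : V N => PkLoc_L ℓ p (J (x₀ + ρ • y) - J x₀)) (ball 0 3) :=
    fun p => (PkLoc_L ℓ p).contDiff.comp_contDiffOn s2
  have c1 : ContinuousOn (fun y => ‖F y - pk ψ x₀ k α ℓ y‖) (closedBall x₀ δ) := by
    have := hψ.sm.continuous
    refine ((hF.continuousOn.mono hB).sub (Continuous.continuousOn ?_)).norm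
    unfold pk
    fun_prop
  have c2 := c1.comp s0.continuous.continuousOn hm
  have c3 : ContinuousOn (fun y : V N => PkLoc_P ψ k F (x₀ + ρ • y) - (α + ℓ y)) (closedBall 0 3) :=
    (hP.continuousOn.comp s0.continuous.continuousOn fun y hy => hB (hm hy)).sub (by fun_prop)
  have i3 := (c3.integrableOn_compact (μ := volume) (isCompact_closedBall _ _)).mono_set
    ball_subset_closedBall
  have e0 : 0 < η + ρ := by positivity
  have key := H3 (J x₀) (fun y => J (x₀ + ρ • y))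
    (fun p y => ((ρ * k : ℝ) : ℂ) * Ef J A ψ (x₀ + ρ • y) (ee p))
    (fun p y => -(PkLoc_L ℓ p (J (x₀ + ρ • y) - J x₀) +
      ((ρ * k : ℝ) : ℂ) * Ef J A ψ (x₀ + ρ • y) (ee p) * (α + ℓ y)))
    (fun y => PkLoc_P ψ k F (x₀ + ρ • y) - (α + ℓ y)) (CA * (η + ρ)) (CB * (η + ρ))
    (le_add_of_nonneg_right hC₂) (h.J_sm.comp s0.contDiffOn hm') s3
    (fun p => ((s4 p).add ((s3 p).mul s1)).neg) ((hP.comp s0.contDiffOn hm').sub s1)
    (b2.mono le_rfl subset_rfl (by rwa [pow_one]))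
    (fun p => (b3 p).mono le_rfl subset_rfl (by nlinarith [norm_nonneg (J x₀)]))
    (fun p => ?_) (fun p y hy => ?_) i3 ?_
  · have e1 : C * (CA * (η + ρ) + CB * (η + ρ)) ≤ |C * (CA + CB)| * (η + ρ) := by
      rw [← add_mul, ← mul_assoc]
      exact mul_le_mul_of_nonneg_right (le_abs_self _) e0.le
    obtain ⟨q1, q2⟩ := key
    have z0 : x₀ + ρ • (0 : V N) = x₀ := by rw [smul_zero, add_zero]
    refine ⟨?_, fun w => ?_⟩
    · simp only [z0, PkLoc_P, hψ.zero, map_zero, add_zero, mul_zero, neg_zero, Complex.exp_zero,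
        mul_one] at q1
      exact q1.trans e1
    · have q3 := PkLoc_fd (ρ := ρ) (y := 0) (z0.symm ▸ hd x₀ hx) α ℓ w
      have q4 : ((√k : ℝ) : ℂ) * ρ = 1 := by exact_mod_cast k4
      rw [z0] at q3
      have q5 : Dv A k F x₀ w - (√k : ℝ) * ℓ w = (√k : ℝ) *
          fderiv ℝ (fun y => PkLoc_P ψ k F (x₀ + ρ • y) - (α + ℓ y)) 0 w := by
        rw [q3, PkLoc_Dv hψ (hd x₀ hx)]
        linear_combination -fderiv ℝ (PkLoc_P ψ k F) x₀ w * q4
      rw [q5, norm_mul, Complex.norm_real, Real.norm_of_nonneg (Real.sqrt_nonneg _),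
        mul_comm _ √k, mul_assoc]
      exact mul_le_mul_of_nonneg_left ((ContinuousLinearMap.le_opNorm _ w).trans
        (mul_le_mul_of_nonneg_right (q2.trans e1) (norm_nonneg _))) (Real.sqrt_nonneg _)
  · refine (((b2.clm (PkLoc_L ℓ p) isOpen_ball s2).add isOpen_ball (s4 p) ((s3 p).mul s1)
      ((b3 p).mul isOpen_ball (s3 p) s1 b1)).neg).mono le_rfl subset_rfl ?_
    have q1 := mul_le_of_le_one_left (by positivity : 0 ≤ C₁ * ρ ^ 1) (PkLoc_L_le hℓ p)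
    have q2 : 0 ≤ CB * η := by rw [hCB]; positivity
    have q3 : CB * ρ = C₁ * ρ ^ 1 + 2 ^ M * (C₂ * ρ) * 4 := by rw [hCB]; ring
    linarith
  · have q1 := PkLoc_sys hψ.sm (hd _ (hm' y hy)) (hD _ (hm' y hy) (ee p))
    have q2 : PkLoc_L ℓ p (J (x₀ + ρ • y) - J x₀) =
        Complex.I * (ℓ (J (x₀ + ρ • y) (ee p)) - Complex.I * ℓ (ee p)) := by
      rw [← hJ, ← map_sub]; rfl
    rw [PkLoc_fd (hd _ (hm' y hy)), PkLoc_fd (hd _ (hm' y hy)), q2]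
    push_cast
    linear_combination (ρ : ℂ) * q1 - ℓ (ee p) * Complex.I_mul_I
  · have q1 := (PkLoc_int (fun y => sq_nonneg _) (c1.pow 2) ρ0 (by linarith)).trans
      (mul_le_mul_of_nonneg_left hI (by positivity))
    rw [mul_comm (η ^ 2), ← mul_assoc, inv_mul_cancel₀ (by positivity), one_mul] at q1
    have q2 := PkLoc_L1 c2 hη e0 (by linarith) q1
    have i2 := (c2.integrableOn_compact (μ := volume) (isCompact_closedBall _ _)).mono_set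
      ball_subset_closedBall
    refine (setIntegral_mono_on i3.norm (i2.const_mul (Real.exp (9 * c⁻¹))) measurableSet_ball
      fun y hy => PkLoc_norm hψ k4 k5 α ℓ F hy).trans ?_
    rw [integral_const_mul, hCA, mul_assoc]
    exact mul_le_mul_of_nonneg_left q2 (Real.exp_pos _).le

end Vale.Agent.P292E
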