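import Vale.Agent.P292E.PkInt
import Vale.Agent.P292E.PkLoc
import Vale.Agent.P292E.CGeo
import Vale.Agent.P292E.CTr

/-! Peak functions on the cone. -/

set_option maxSynthPendingDepth 3

open scoped ContDiff Topology ComplexConjugate
open Set Filter MeasureTheory Metric
open Vale.Agent.P292 (Cone)

noncomputable section

namespace Vale.Agent.P292E

variable {N : ℕ} {C : Type} [TopologicalSpace C]

theorem pksec_rad [T2Space C] {A : Cone (V N) C} {j j' : A.ι} {x₀ x₁ : V N} (h₀ : x₀ ∈ A.base j)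
    (h₁ : x₁ ∈ A.base j') : ∃ δ δ' : ℝ, 0 < δ ∧ 0 < δ' ∧ closedBall x₀ δ ⊆ A.base j ∧
      closedBall x₁ δ' ⊆ A.base j' ∧
      (¬(sg A j' x₁ ∈ (A.τ j).source ∧ zc A j (sg A j' x₁) = x₀) → ∀ y ∈ closedBall x₁ δ',
        ¬(sg A j' y ∈ (A.τ j).source ∧ zc A j (sg A j' y) ∈ closedBall x₀ δ)) := by
  obtain ⟨δ, hδ, hb⟩ := nhds_basis_closedBall.mem_iff.1 ((A.base_open j).mem_nhds h₀)
  by_cases h : sg A j' x₁ ∈ (A.τ j).source ∧ zc A j (sg A j' x₁) = x₀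
  · obtain ⟨δ', hδ', hb'⟩ := nhds_basis_closedBall.mem_iff.1 ((A.base_open j').mem_nhds h₁)
    exact ⟨δ, δ', hδ, hδ', hb, hb', fun k => absurd h k⟩
  obtain ⟨ρ, hρ, h1, h2⟩ : ∃ ρ, 0 < ρ ∧ ρ ≤ δ ∧
      ¬(sg A j' x₁ ∈ (A.τ j).source ∧ zc A j (sg A j' x₁) ∈ closedBall x₀ ρ) := by
    by_cases k : sg A j' x₁ ∈ (A.τ j).source
    · have k1 : 0 < dist (zc A j (sg A j' x₁)) x₀ := dist_pos.2 fun e => h ⟨k, e⟩
      refine ⟨min δ (dist (zc A j (sg A j' x₁)) x₀ / 2), lt_min hδ (half_pos k1), min_le_left _ _,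
        fun k2 => ?_⟩
      linarith [(mem_closedBall.1 k2.2).trans (min_le_right _ _)]
    · exact ⟨δ, hδ, le_rfl, fun k2 => k k2.1⟩
  have hb2 := (closedBall_subset_closedBall h1).trans hb
  obtain ⟨δ', hδ', hb'⟩ := nhds_basis_closedBall.mem_iff.1
    ((cl_open j' j (isCompact_closedBall x₀ ρ) hb2).mem_nhds ⟨h₁, h2⟩)
  exact ⟨ρ, δ', hρ, hδ', hb2, fun y hy => (hb' hy).1, fun _ y hy => (hb' hy).2⟩

theorem pksec_small (a b : ℝ) {ε : ℝ} (hε : 0 < ε) :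
    ∀ᶠ k : ℕ in atTop, a * (√(b / k) + (√k)⁻¹) ≤ ε := by
  have h1 : Tendsto (fun k : ℕ => √(b / k)) atTop (𝓝 0) := by
    simpa using (tendsto_const_div_atTop_nhds_zero_nat b).sqrt
  have h2 : Tendsto (fun k : ℕ => (√k)⁻¹) atTop (𝓝 0) :=
    (Real.tendsto_sqrt_atTop.comp tendsto_natCast_atTop_atTop).inv_tendsto_atTop
  exact ((h1.add h2).const_mul a).eventually_le_const (by simpa using hε)

theorem peakS [T2Space C] (hS : SysS N) {A : Cone (V N) C} (hJ : A.JFacts) (hP : ProjS A) :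
    PeakS A := by
  intro j j' x₀ h₀ x₁ h₁ ε hε
  obtain ⟨δ, δ', hδ, hδ', hb, hb', hsep⟩ := pksec_rad h₀ h₁
  obtain ⟨ψ, c, hψ⟩ := (geo hJ j).exists_psi h₀
  obtain ⟨ψ', c', hψ'⟩ := (geo hJ j').exists_psi h₁
  obtain ⟨χ, D, hD, hχ, hχs, hχ1, hint⟩ := pk_int (geo hJ j) hψ hδ hb
  obtain ⟨k₁, B, hB⟩ := hP j j' _ _ (isCompact_closedBall x₀ δ) hb (isCompact_closedBall x₁ δ') hb'
  have hsub : closedBall x₀ (δ / 2) ⊆ closedBall x₀ δ :=
    closedBall_subset_closedBall (half_le_self hδ.le)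
  obtain ⟨k₂, C₂, -, h2⟩ := pk_loc hS (geo hJ j) hψ (half_pos hδ) (hsub.trans hb)
  obtain ⟨k₃, C₃, -, h3⟩ := pk_loc hS (geo hJ j') hψ' hδ' hb'
  obtain ⟨k₀, hk₀⟩ := eventually_atTop.1 ((pksec_small C₂ (max B 0 * D) hε).and
    ((pksec_small C₃ (max B 0 * D) hε).and ((eventually_ge_atTop 1).and
      ((eventually_ge_atTop k₁).and ((eventually_ge_atTop k₂).and (eventually_ge_atTop k₃))))))
  refine ⟨k₀, fun k hk α ℓ hα hℓ hl => ?_⟩
  obtain ⟨e2, e3, l0, l1, l2, l3⟩ := hk₀ k hk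
  have hpk : ContDiff ℝ ∞ (pk ψ x₀ k α ℓ) := by
    have := hψ.sm
    unfold pk
    fun_prop
  have hF := cut_contDiff (A.base_open j) hχ hpk.contDiffOn
  obtain ⟨s, a1, a2, a3, a4, a5⟩ := hB k l1 _ hF (tsupport_mul_subset_left.trans hχs)
  have hI : B / k * ∫ y in closedBall x₀ δ, ∑ p, ‖Dbv (JV A j) (AV A j) k
      (fun y => χ y * pk ψ x₀ k α ℓ y) y (ee p)‖ ^ 2 ≤ √(max B 0 * D / k) ^ 2 * (√k)⁻¹ ^ N := by
    rw [Real.sq_sqrt (by positivity), mul_div_right_comm, mul_assoc]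
    exact mul_le_mul (div_le_div_of_nonneg_right (le_max_left _ _) (Nat.cast_nonneg k))
      (hint k l0 α ℓ hα hℓ hl) (integral_nonneg fun y => by positivity) (by positivity)
  obtain ⟨b1, b2⟩ := h2 k l2 α ℓ hα hℓ hl (lc A j s) _ (Real.sqrt_nonneg _) (lc_sm a1 j)
    (fun y hy => Dbv_lc hJ a1 a2 a3 hy) (le_trans (by
      refine le_trans (le_of_eq (setIntegral_congr_fun measurableSet_closedBall fun y hy => ?_))
        (setIntegral_mono_set (((((lc_sm a1 j).continuousOn.mono hb).sub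
          hF.1.continuous.continuousOn).norm.pow 2).integrableOn_compact
            (isCompact_closedBall _ _)) (Eventually.of_forall fun y => by positivity)
              hsub.eventuallyLE)
      simp only [hχ1 y hy, one_mul]) (a4.trans hI))
  refine ⟨s, a1, a2, a3, b1.trans e2, fun v => (b2 v).trans (by gcongr), fun h => ?_⟩
  have b3 := (h3 k l3 0 0 (by simp) (by simp) (by simp) (lc A j' s) _ (Real.sqrt_nonneg _)
    (lc_sm a1 j') (fun y hy => Dbv_lc hJ a1 a2 a3 hy)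
    (le_trans (le_of_eq (by simp [pk])) ((a5 (hsep h)).trans hI))).1
  rw [sub_zero] at b3
  exact b3.trans e3

end Vale.Agent.P292E
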