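import Vale.Agent.P292.Defs

/-! Change of the model space. -/

set_option maxSynthPendingDepth 3

open scoped ContDiff Topology
open Set Filter
open Vale.Agent.P292 (Cone)

noncomputable section

namespace Vale.Agent.P292E

section
variable {X Y Z : Type} [NormedAddCommGroup X] [NormedSpace ℝ X] [NormedAddCommGroup Y]
  [NormedSpace ℝ Y] [NormedAddCommGroup Z] [NormedSpace ℝ Z]

theorem tran_r (e : X ≃L[ℝ] Y) (f : X → Z) (y v : Y) :
    fderiv ℝ (f ∘ e.symm) y v = fderiv ℝ f (e.symm y) (e.symm v) := by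
  rw [e.symm.comp_right_fderiv]
  rfl

theorem tran_c (e : X ≃L[ℝ] Y) (f : X → X) (y v : Y) :
    fderiv ℝ (e ∘ f ∘ e.symm) y v = e (fderiv ℝ f (e.symm y) (e.symm v)) := by
  rw [e.comp_fderiv, ← tran_r]
  rfl

theorem tran_f (e : X ≃L[ℝ] Y) (β : X → X →L[ℝ] Z) (y v w : Y) :
    fderiv ℝ (fun y => (β (e.symm y)).comp (e.symm : Y →L[ℝ] X)) y v w =
      fderiv ℝ β (e.symm y) (e.symm v) (e.symm w) := by
  have h : (fun y => (β (e.symm y)).comp (e.symm : Y →L[ℝ] X)) =
      e.arrowCongr (ContinuousLinearEquiv.refl ℝ Z) ∘ β ∘ e.symm := by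
    funext y
    ext w
    rfl
  rw [h, ContinuousLinearEquiv.comp_fderiv, ← tran_r]
  rfl

theorem tran_s (e : X ≃L[ℝ] Y) {f : X → Z} {s : Set X} (h : ContDiffOn ℝ ∞ f s) :
    ContDiffOn ℝ ∞ (f ∘ e.symm) (e.symm ⁻¹' s) :=
  h.comp e.symm.contDiff.contDiffOn fun _ hx => hx

end

variable {V V' : Type} [NormedAddCommGroup V] [NormedSpace ℝ V] [NormedAddCommGroup V']
  [NormedSpace ℝ V'] (L : V ≃L[ℝ] V') {C : Type} [TopologicalSpace C] (A : Cone V C)

/-- the equivalence of the total spaces -/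
def tranM : (V × ℂ) ≃L[ℝ] V' × ℂ := L.prodCongr (ContinuousLinearEquiv.refl ℝ ℂ)

theorem tran_om (ϑ : V → V →L[ℝ] ℂ) (p v w : V' × ℂ) :
    P292.omC (fun y => (ϑ (L.symm y)).comp (L.symm : V' →L[ℝ] V)) p v w =
      P292.omC ϑ ((tranM L).symm p) ((tranM L).symm v) ((tranM L).symm w) := by
  simp only [P292.omC, tran_f]
  rfl

/-- the transported cone -/
def tranC : Cone V' C where
  D := A.D
  three := A.three
  dim := L.toLinearEquiv.finrank_eq.symm.trans A.dim
  act := A.act
  act_cont := A.act_cont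
  ι := A.ι
  τ j := (A.τ j).transHomeomorph (tranM L).toHomeomorph
  base j := L.symm ⁻¹' A.base j
  base_open j := (A.base_open j).preimage L.symm.continuous
  target j := by
    change (tranM L).symm ⁻¹' (A.τ j).target = _
    rw [A.target]
    rfl
  cover := A.cover
  act_mem := A.act_mem
  act_eq j c hc l hl := congrArg (tranM L) (A.act_eq j c hc l hl)
  smooth i j := (tranM L).contDiff.comp_contDiffOn (tran_s (tranM L) (A.smooth i j))
  r := A.r
  r_cont := A.r_cont
  r_pos := A.r_pos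
  r_act := A.r_act
  r_smooth j := tran_s (tranM L) (A.r_smooth j)
  compact := A.compact
  ϑ j y := (A.ϑ j (L.symm y)).comp (L.symm : V' →L[ℝ] V)
  ϑ_smooth j := (tran_s L (A.ϑ_smooth j)).clm_comp contDiffOn_const
  compat i j p hp hs v := by
    refine (A.compat i j ((tranM L).symm p) hp hs ((tranM L).symm v)).trans ?_
    have h := tran_c (tranM L) (A.τ i ∘ (A.τ j).symm) p v
    change _ = P292.thC (A.ϑ i) ((tranM L).symm (tranM L (A.τ i ((A.τ j).symm ((tranM L).symm p)))))
      ((tranM L).symm (fderiv ℝ (tranM L ∘ (A.τ i ∘ (A.τ j).symm) ∘ (tranM L).symm) p v))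
    rw [h, ContinuousLinearEquiv.symm_apply_apply, ContinuousLinearEquiv.symm_apply_apply]
  J j p := (tranM L : V × ℂ →L[ℝ] V' × ℂ).comp
    ((A.J j ((tranM L).symm p)).comp ((tranM L).symm : V' × ℂ →L[ℝ] V × ℂ))
  J_smooth j := contDiffOn_const.clm_comp
    ((tran_s (tranM L) (A.J_smooth j)).clm_comp contDiffOn_const)
  J_sq j p hp v := by
    have h := A.J_sq j ((tranM L).symm p) hp ((tranM L).symm v)
    simp [h]
  J_om j p hp v w := by
    have h := A.J_om j ((tranM L).symm p) hp ((tranM L).symm v) ((tranM L).symm w)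
    rw [tran_om, tran_om, ← h]
    simp
  nondeg j p hp v h := by
    refine (tranM L).symm.map_eq_zero_iff.1 (A.nondeg j ((tranM L).symm p) hp _ fun w => ?_)
    have k := h (tranM L w)
    rwa [tran_om, ContinuousLinearEquiv.symm_apply_apply] at k
  psh j p hp v hv := by
    have h := A.psh j ((tranM L).symm p) hp ((tranM L).symm v)
      (fun k => hv (L.symm.map_eq_zero_iff.1 k))
    have e : (fun q => (fderiv ℝ (fun q => Real.log (A.r
        (((A.τ j).transHomeomorph (tranM L).toHomeomorph).symm q))) q).comp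
          ((tranM L : V × ℂ →L[ℝ] V' × ℂ).comp ((A.J j ((tranM L).symm q)).comp
            ((tranM L).symm : V' × ℂ →L[ℝ] V × ℂ)))) =
        fun q => ((fun q => (fderiv ℝ (fun q => Real.log (A.r ((A.τ j).symm q))) q).comp (A.J j q))
          ((tranM L).symm q)).comp ((tranM L).symm : V' × ℂ →L[ℝ] V × ℂ) := by
      funext q
      refine ContinuousLinearMap.ext fun w => ?_
      refine (tran_r (tranM L) (fun q => Real.log (A.r ((A.τ j).symm q))) q _).trans ?_
      simp
    have k := tran_f (tranM L)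
      (fun q => (fderiv ℝ (fun q => Real.log (A.r ((A.τ j).symm q))) q).comp (A.J j q)) p
    rw [e, k, k]
    simpa using h

theorem tran {V V' : Type} [NormedAddCommGroup V] [NormedSpace ℝ V] [NormedAddCommGroup V']
    [NormedSpace ℝ V'] (L : V ≃L[ℝ] V') {C : Type} [TopologicalSpace C] (A : Cone V C) :
    ∃ A' : Cone V' C, ∀ κ : Type, [Fintype κ] → Nonempty (A'.Emb κ) → Nonempty (A.Emb κ) := by
  refine ⟨tranC L A, fun κ _ ⟨ε⟩ => ?_⟩
  have hm : ∀ j, ∀ p ∈ (A.τ j).target, tranM L p ∈ ((tranC L A).τ j).target := fun j p hp => by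
    change (tranM L).symm (tranM L p) ∈ (A.τ j).target
    rwa [ContinuousLinearEquiv.symm_apply_apply]
  refine ⟨⟨ε.w, ε.w_pos, ε.Φ, fun i j => ?_, ε.hom, fun i j p hp => ?_, ε.inj, ε.ne,
    fun j p hp v w h => ?_⟩⟩
  · refine ((ε.sm i j).comp (tranM L).contDiff.contDiffOn (hm j)).congr fun p _ => ?_
    change _ = ε.Φ ((A.τ j).symm ((tranM L).symm (tranM L p))) i
    rw [ContinuousLinearEquiv.symm_apply_apply]
    rfl
  · refine ContinuousLinearMap.ext fun v => ?_
    have h := DFunLike.congr_fun (ε.hol i j _ (hm j p hp)) (tranM L v)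
    have k := tran_r (tranM L) ((fun c => ε.Φ c i) ∘ (A.τ j).symm) (tranM L p)
    change fderiv ℝ (((fun c => ε.Φ c i) ∘ (A.τ j).symm) ∘ (tranM L).symm) (tranM L p) (tranM L v) +
      Complex.I • fderiv ℝ (((fun c => ε.Φ c i) ∘ (A.τ j).symm) ∘ (tranM L).symm) (tranM L p)
        (tranM L (A.J j ((tranM L).symm (tranM L p)) ((tranM L).symm (tranM L v)))) = 0 at h
    simp only [k, ContinuousLinearEquiv.symm_apply_apply] at h
    exact h
  · refine (tranM L).injective (ε.imm j _ (hm j p hp) ?_)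
    have k := tran_r (tranM L) (ε.Φ ∘ (A.τ j).symm) (tranM L p)
    change fderiv ℝ ((ε.Φ ∘ (A.τ j).symm) ∘ (tranM L).symm) (tranM L p) (tranM L v) =
      fderiv ℝ ((ε.Φ ∘ (A.τ j).symm) ∘ (tranM L).symm) (tranM L p) (tranM L w)
    simpa only [k, ContinuousLinearEquiv.symm_apply_apply] using h

end Vale.Agent.P292E
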