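import Vale.Agent.P292.Defs
import Vale.Agent.P292E.UDefs

/-! The unitary gauge of a cone. -/

set_option maxSynthPendingDepth 3

open scoped ContDiff Topology ComplexConjugate
open Set Filter MeasureTheory Metric
open Vale.Agent.P292 (Cone)

noncomputable section

namespace Vale.Agent.P292E

variable {N : ℕ} {C : Type} [TopologicalSpace C]

variable (A : Cone (V N) C)

/-- the norm of the frame -/
def hh (j : A.ι) (y : V N) : ℝ := A.r ((A.τ j).symm (y, 1))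

/-- the unitary frame -/
def sg (j : A.ι) (y : V N) : C := (A.τ j).symm (y, ((hh A j y : ℝ) : ℂ)⁻¹)

/-- the complex structure of the base -/
def JV (j : A.ι) (y : V N) : V N →L[ℝ] V N :=
  (ContinuousLinearMap.fst ℝ (V N) ℂ).comp
    ((A.J j (y, 1)).comp (ContinuousLinearMap.inl ℝ (V N) ℂ))

/-- the connection form -/
def AV (j : A.ι) (y : V N) : V N →L[ℝ] ℝ :=
  ((fderiv ℝ (fun q => Real.log (A.r ((A.τ j).symm q))) (y, 1)).comp (A.J j (y, 1))).comp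
    (ContinuousLinearMap.inl ℝ (V N) ℂ)

/-- a function read in the unitary frame -/
def lc (j : A.ι) (u : C → ℂ) (y : V N) : ℂ := u (sg A j y)

/-- the base coordinate -/
def zc (j : A.ι) (c : C) : V N := (A.τ j c).1

/-- the fibre coordinate in the unitary frame -/
def lu (j : A.ι) (c : C) : ℂ := (A.τ j c).2 * hh A j (A.τ j c).1

/-- the vertical component of a tangent vector -/
def tt (j : A.ι) (p v : V N × ℂ) : ℂ :=
  v.2 / p.2 + (fderiv ℝ (fun y => Real.log (hh A j y)) p.1 v.1 : ℝ) - Complex.I * AV A j p.1 v.1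

/-- approximation by holomorphic functions in the mean -/
def ProjS : Prop :=
  ∀ (j j' : A.ι) (K K' : Set (V N)), IsCompact K → K ⊆ A.base j → IsCompact K' → K' ⊆ A.base j' →
    ∃ (k₀ : ℕ) (B : ℝ), ∀ k, k₀ ≤ k → ∀ F : V N → ℂ, Tst (A.base j) F → tsupport F ⊆ K →
      ∃ s, A.Sm s ∧ A.Hom k s ∧ A.Hol s ∧
        ∫ y in K, ‖lc A j s y - F y‖ ^ 2 ≤
          B / k * ∫ y in K, ∑ p, ‖Dbv (JV A j) (AV A j) k F y (ee p)‖ ^ 2 ∧
        ((∀ y ∈ K', ¬(sg A j' y ∈ (A.τ j).source ∧ zc A j (sg A j' y) ∈ K)) →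
          ∫ y in K', ‖lc A j' s y‖ ^ 2 ≤
            B / k * ∫ y in K, ∑ p, ‖Dbv (JV A j) (AV A j) k F y (ee p)‖ ^ 2)

/-- holomorphic functions with prescribed first order jet -/
def PeakS : Prop :=
  ∀ (j j' : A.ι), ∀ x₀ ∈ A.base j, ∀ x₁ ∈ A.base j', ∀ ε : ℝ, 0 < ε → ∃ k₀ : ℕ, ∀ k, k₀ ≤ k →
    ∀ (α : ℂ) (ℓ : V N →L[ℝ] ℂ), ‖α‖ ≤ 1 → ‖ℓ‖ ≤ 1 → (∀ v, ℓ (JV A j x₀ v) = Complex.I * ℓ v) →
      ∃ s, A.Sm s ∧ A.Hom k s ∧ A.Hol s ∧ ‖lc A j s x₀ - α‖ ≤ ε ∧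
        (∀ v, ‖Dv (AV A j) k (lc A j s) x₀ v - (√k : ℝ) * ℓ v‖ ≤ ε * √k * ‖v‖) ∧
        (¬(sg A j' x₁ ∈ (A.τ j).source ∧ zc A j (sg A j' x₁) = x₀) → ‖lc A j' s x₁‖ ≤ ε)

/-- finite families of homogeneous holomorphic functions -/
structure Fam {V : Type} [NormedAddCommGroup V] [NormedSpace ℝ V] (A : Cone V C) where
  κ : Type
  [fin : Fintype κ]
  w : κ → ℕ
  w_pos : ∀ i, 0 < w i
  Φ : C → κ → ℂ
  sm : ∀ i, A.Sm fun c => Φ c i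
  hom : ∀ i, A.Hom (w i) fun c => Φ c i
  hol : ∀ i, A.Hol fun c => Φ c i

attribute [instance] Fam.fin

/-- the error form of a phase -/
def Ef (J : V N → V N →L[ℝ] V N) (A : V N → V N →L[ℝ] ℝ) (ψ : V N → ℂ) (y v : V N) : ℂ :=
  fderiv ℝ ψ y v + Complex.I * fderiv ℝ ψ y (J y v) + Complex.I * A y v - A y (J y v)

/-- a good phase at `x₀` -/
structure Psi (J : V N → V N →L[ℝ] V N) (A : V N → V N →L[ℝ] ℝ) (x₀ : V N) (ψ : V N → ℂ)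
    (c : ℝ) : Prop where
  pos : 0 < c
  sm : ContDiff ℝ ∞ ψ
  up : ∀ y, (ψ y).re ≤ -c * ‖y - x₀‖ ^ 2
  low : ∀ y, -c⁻¹ * ‖y - x₀‖ ^ 2 ≤ (ψ y).re
  zero : ψ x₀ = 0
  der : ∀ v, fderiv ℝ ψ x₀ v = -Complex.I * A x₀ v
  err : ∀ p, ∀ n < 2, iteratedFDeriv ℝ n (fun y => Ef J A ψ y (ee p)) x₀ = 0

/-- the peak function -/
def pk (ψ : V N → ℂ) (x₀ : V N) (k : ℕ) (α : ℂ) (ℓ : V N →L[ℝ] ℂ) (y : V N) : ℂ :=
  (α + (√k : ℝ) * ℓ (y - x₀)) * Complex.exp (k * ψ y)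

end Vale.Agent.P292E
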