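import Vale.Agent.P292E.CLoc

/-! Derivatives in the unitary frame. -/

set_option maxSynthPendingDepth 3

open scoped ContDiff Topology ComplexConjugate
open Set Filter MeasureTheory Metric
open Vale.Agent.P292 (Cone)

noncomputable section

namespace Vale.Agent.P292E

variable {N : ℕ} {C : Type} [TopologicalSpace C]

variable {A : Cone (V N) C} {j i : A.ι} {y : V N} {c : C} {u : C → ℂ} {k : ℕ} {p : V N × ℂ}

theorem CDer_J (hJ : A.JFacts) (hp : p ∈ (A.τ j).target) (v : V N × ℂ) :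
    A.J j p v = ((A.J j (p.1, 1) (v.1, 0)).1,
      p.2 * (A.J j (p.1, 1) (v.1, 0)).2 + Complex.I * v.2) := by
  have h1 := hJ.scale j (p.1, 1) (mem_target (target_fst hp).1 one_ne_zero) p.2 (target_fst hp).2
    (v.1, 0)
  simp only [mul_one, mul_zero, Prod.mk.eta] at h1
  have e : v = (v.1, 0) + (0, v.2) := by simp
  conv_lhs => rw [e, map_add, h1, hJ.vert j p hp]
  simp

theorem J_fst (hJ : A.JFacts) (hp : p ∈ (A.τ j).target) (v : V N × ℂ) :
    (A.J j p v).1 = JV A j p.1 v.1 := by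
  rw [CDer_J hJ hp]
  rfl

theorem J_snd (hJ : A.JFacts) (hp : p ∈ (A.τ j).target) (v : V N × ℂ) :
    (A.J j p v).2 = p.2 * (A.J j (p.1, 1) (v.1, 0)).2 + Complex.I * v.2 := by
  rw [CDer_J hJ hp]

theorem CDer_nhds (hp : p ∈ (A.τ j).target) : ∀ᶠ q in 𝓝 p, q ∈ (A.τ j).target :=
  (A.τ j).open_target.mem_nhds hp

theorem CDer_hh (hy : y ∈ A.base j) : DifferentiableAt ℝ (hh A j) y :=
  ((hh_sm A j).contDiffAt ((A.base_open j).mem_nhds hy)).differentiableAt (by simp)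

theorem CDer_lognorm {l : ℂ} (hl : l ≠ 0) : ∃ L : ℂ →L[ℝ] ℝ,
    HasFDerivAt (fun z : ℂ => Real.log ‖z‖) L l ∧ ∀ μ, L μ = (μ / l).re := by
  have hn : ‖l‖ ^ 2 ≠ 0 := pow_ne_zero _ (norm_ne_zero_iff.2 hl)
  have h := (((hasFDerivAt_id (𝕜 := ℝ) l).norm_sq).log hn).const_mul (1 / 2 : ℝ)
  refine ⟨_, h.congr_of_eventuallyEq (Eventually.of_forall fun z => ?_), fun μ => ?_⟩
  · simp only [id, Real.log_pow]
    push_cast
    ring
  · have h2 : Complex.normSq l ≠ 0 := by rwa [← Complex.sq_norm]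
    simp [Complex.div_re, Complex.sq_norm]
    field_simp

theorem dlog_r (hp : p ∈ (A.τ j).target) (v : V N × ℂ) :
    fderiv ℝ (fun q => Real.log (A.r ((A.τ j).symm q))) p v =
      fderiv ℝ (fun y => Real.log (hh A j y)) p.1 v.1 + (v.2 / p.2).re := by
  obtain ⟨L, hL, hL'⟩ := CDer_lognorm (target_fst hp).2
  have h1 : DifferentiableAt ℝ (fun y => Real.log (hh A j y)) p.1 :=
    (CDer_hh (target_fst hp).1).log (hh_pos A j _).ne'
  have h2 := (h1.hasFDerivAt.comp p hasFDerivAt_fst).add (hL.comp p hasFDerivAt_snd)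
  have h3 : (fun q => Real.log (A.r ((A.τ j).symm q))) =ᶠ[𝓝 p]
      (fun y => Real.log (hh A j y)) ∘ Prod.fst + (fun z : ℂ => Real.log ‖z‖) ∘ Prod.snd := by
    filter_upwards [CDer_nhds hp] with q hq
    rw [r_symm hq, Real.log_mul (norm_ne_zero_iff.2 (target_fst hq).2) (hh_pos A j _).ne',
      add_comm]
    rfl
  rw [(h2.congr_of_eventuallyEq h3).fderiv, ← hL']
  rfl

theorem CDer_AV (hy : y ∈ A.base j) (v : V N) :
    AV A j y v = fderiv ℝ (fun y => Real.log (hh A j y)) y (JV A j y v) +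
      (A.J j (y, 1) (v, 0)).2.re := by
  have := dlog_r (mem_target hy one_ne_zero) (A.J j (y, 1) (v, 0))
  rw [div_one] at this
  exact this

theorem CDer_sq (hJ : A.JFacts) (hy : y ∈ A.base j) (v : V N) :
    JV A j y (JV A j y v) = -v ∧
      (A.J j (y, 1) (JV A j y v, 0)).2 = -Complex.I * (A.J j (y, 1) (v, 0)).2 := by
  have hp := mem_target hy one_ne_zero
  have h := A.J_sq j _ hp (v, 0)
  have h1 := J_fst hJ hp (A.J j (y, 1) (v, 0))
  have h2 := J_snd hJ hp (A.J j (y, 1) (v, 0))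
  rw [h] at h1 h2
  refine ⟨h1.symm, ?_⟩
  simp only [Prod.snd_neg, neg_zero, one_mul] at h2
  have e : (A.J j (y, 1) (v, 0)).1 = JV A j y v := rfl
  rw [e] at h2
  linear_combination -h2

theorem dlog_r_J (hJ : A.JFacts) (hp : p ∈ (A.τ j).target) (v : V N × ℂ) :
    fderiv ℝ (fun q => Real.log (A.r ((A.τ j).symm q))) p (A.J j p v) =
      AV A j p.1 v.1 - (v.2 / p.2).im := by
  have h0 := (target_fst hp).2
  rw [dlog_r hp, J_fst hJ hp, J_snd hJ hp, CDer_AV (target_fst hp).1, add_div,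
    mul_div_cancel_left₀ _ h0, mul_div_assoc]
  simp only [Complex.add_re, Complex.mul_re, Complex.I_re, Complex.I_im]
  ring

theorem tt_J (hJ : A.JFacts) (hp : p ∈ (A.τ j).target) (v : V N × ℂ) :
    tt A j p (A.J j p v) = Complex.I * tt A j p v := by
  have h0 := (target_fst hp).2
  have hy := (target_fst hp).1
  rw [tt, tt, J_fst hJ hp, J_snd hJ hp, CDer_AV hy, CDer_AV hy, (CDer_sq hJ hy _).1,
    (CDer_sq hJ hy _).2, add_div, mul_div_cancel_left₀ _ h0, mul_div_assoc, map_neg]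
  apply Complex.ext <;> simp <;> ring

theorem fderiv_lc (hs : A.Sm u) (hu : A.Hom k u) (hp : p ∈ (A.τ j).target) (v : V N × ℂ) :
    fderiv ℝ (u ∘ (A.τ j).symm) p v = (p.2 * hh A j p.1) ^ k *
      (Dv (AV A j) k (lc A j u) p.1 v.1 + k * tt A j p v * lc A j u p.1) := by
  have h0 := (target_fst hp).2
  have hy := (target_fst hp).1
  have h1 := (CDer_hh hy).hasFDerivAt
  have h2 : DifferentiableAt ℝ (lc A j u) p.1 :=
    ((lc_sm hs j).contDiffAt ((A.base_open j).mem_nhds hy)).differentiableAt (by simp)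
  have h3 := ((hasFDerivAt_snd.mul
    (Complex.ofRealCLM.hasFDerivAt.comp p (h1.comp p hasFDerivAt_fst))).pow k).mul
    (h2.hasFDerivAt.comp p hasFDerivAt_fst)
  have h4 := h3.congr_of_eventuallyEq (f₁ := u ∘ (A.τ j).symm) (by
    filter_upwards [CDer_nhds hp] with q hq
    exact symm_eq_lc hu hq)
  have h5 := (h1.log (hh_pos A j _).ne').fderiv
  have h6 : ((hh A j p.1 : ℝ) : ℂ) ≠ 0 := by exact_mod_cast (hh_pos A j _).ne'
  rw [h4.fderiv, Dv, tt, h5]
  rcases k with _ | k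
  · simp
  · simp
    field_simp
    ring

theorem dbar_lc (hJ : A.JFacts) (hs : A.Sm u) (hu : A.Hom k u) (hp : p ∈ (A.τ j).target)
    (v : V N × ℂ) : A.dbar j u p v = (p.2 * hh A j p.1) ^ k *
      Dbv (JV A j) (AV A j) k (lc A j u) p.1 v.1 := by
  have e : A.dbar j u p v = fderiv ℝ (u ∘ (A.τ j).symm) p v +
      Complex.I * fderiv ℝ (u ∘ (A.τ j).symm) p (A.J j p v) := rfl
  rw [e, fderiv_lc hs hu hp, fderiv_lc hs hu hp, tt_J hJ hp, J_fst hJ hp, Dbv]
  linear_combination (p.2 * hh A j p.1) ^ k * k * tt A j p v * lc A j u p.1 * Complex.I_mul_I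

theorem Dbv_lc (hJ : A.JFacts) (hs : A.Sm u) (hu : A.Hom k u) (hh : A.Hol u) (hy : y ∈ A.base j)
    (v : V N) : Dbv (JV A j) (AV A j) k (lc A j u) y v = 0 := by
  have hp := mem_target hy one_ne_zero
  have h := dbar_lc hJ hs hu hp (v, 0)
  rw [hh j _ hp] at h
  refine (mul_eq_zero.1 h.symm).resolve_left (pow_ne_zero _ (mul_ne_zero one_ne_zero ?_))
  exact_mod_cast (hh_pos A j _).ne'

end Vale.Agent.P292E
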