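import Vale.Agent.P292E.CDefs

/-! Functions on the cone in the unitary frame. -/

set_option maxSynthPendingDepth 3

open scoped ContDiff Topology ComplexConjugate
open Set Filter MeasureTheory Metric
open Vale.Agent.P292 (Cone)

noncomputable section

namespace Vale.Agent.P292E

variable {N : ℕ} {C : Type} [TopologicalSpace C]

variable {A : Cone (V N) C} {j i : A.ι} {y : V N} {c : C} {u : C → ℂ} {k : ℕ} {p : V N × ℂ}

theorem mem_target (hy : y ∈ A.base j) {l : ℂ} (hl : l ≠ 0) : (y, l) ∈ (A.τ j).target := by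
  rw [A.target]
  exact ⟨hy, hl⟩

theorem target_fst (hp : p ∈ (A.τ j).target) : p.1 ∈ A.base j ∧ p.2 ≠ 0 := by
  rw [A.target] at hp
  exact hp

theorem zc_mem (hc : c ∈ (A.τ j).source) : zc A j c ∈ A.base j :=
  (target_fst ((A.τ j).map_source hc)).1

theorem hh_pos (A : Cone (V N) C) (j : A.ι) (y : V N) : 0 < hh A j y := A.r_pos _

theorem hh_sm (A : Cone (V N) C) (j : A.ι) : ContDiffOn ℝ ∞ (hh A j) (A.base j) :=
  (A.r_smooth j).comp (f := fun y : V N => (y, (1 : ℂ))) (by fun_prop)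
    fun _ hy => mem_target hy one_ne_zero

theorem CLoc_ne (A : Cone (V N) C) (j : A.ι) (y : V N) : ((hh A j y : ℝ) : ℂ) ≠ 0 :=
  Complex.ofReal_ne_zero.2 (hh_pos A j y).ne'

theorem symm_act (hp : p ∈ (A.τ j).target) {l : ℂ} (hl : l ≠ 0) :
    (A.τ j).symm (p.1, l * p.2) = A.act l ((A.τ j).symm p) := by
  have h1 := (A.τ j).map_target hp
  have h2 := A.act_eq j _ h1 l hl
  rw [(A.τ j).right_inv hp] at h2
  rw [← h2, (A.τ j).left_inv (A.act_mem j _ h1 l hl)]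

theorem act_one (A : Cone (V N) C) (c : C) : A.act 1 c = c := by
  obtain ⟨j, hj⟩ := A.cover c
  refine (A.τ j).injOn (A.act_mem j c hj 1 one_ne_zero) hj ?_
  rw [A.act_eq j c hj 1 one_ne_zero, one_mul]

theorem act_act (A : Cone (V N) C) {l l' : ℂ} (hl : l ≠ 0) (hl' : l' ≠ 0) (c : C) :
    A.act l (A.act l' c) = A.act (l * l') c := by
  obtain ⟨j, hj⟩ := A.cover c
  have h1 := A.act_mem j c hj l' hl'
  refine (A.τ j).injOn (A.act_mem j _ h1 l hl) (A.act_mem j c hj _ (mul_ne_zero hl hl')) ?_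
  rw [A.act_eq j _ h1 l hl, A.act_eq j c hj l' hl', A.act_eq j c hj _ (mul_ne_zero hl hl'),
    mul_assoc]

theorem act_mem_iff {l : ℂ} (hl : l ≠ 0) : A.act l c ∈ (A.τ j).source ↔ c ∈ (A.τ j).source := by
  refine ⟨fun h => ?_, fun h => A.act_mem j c h l hl⟩
  have := A.act_mem j _ h l⁻¹ (inv_ne_zero hl)
  rwa [act_act A (inv_ne_zero hl) hl, inv_mul_cancel₀ hl, act_one] at this

theorem r_symm (hp : p ∈ (A.τ j).target) : A.r ((A.τ j).symm p) = ‖p.2‖ * hh A j p.1 := by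
  have h := symm_act (mem_target (target_fst hp).1 one_ne_zero) (target_fst hp).2
  rw [mul_one] at h
  rw [hh, ← A.r_act _ _ (target_fst hp).2, ← h]

theorem CLoc_mem (hy : y ∈ A.base j) : (y, ((hh A j y : ℝ) : ℂ)⁻¹) ∈ (A.τ j).target :=
  mem_target hy (inv_ne_zero (CLoc_ne A j y))

theorem sg_mem (hy : y ∈ A.base j) : sg A j y ∈ (A.τ j).source :=
  (A.τ j).map_target (CLoc_mem hy)

theorem tau_sg (hy : y ∈ A.base j) : A.τ j (sg A j y) = (y, ((hh A j y : ℝ) : ℂ)⁻¹) :=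
  (A.τ j).right_inv (CLoc_mem hy)

theorem r_sg (hy : y ∈ A.base j) : A.r (sg A j y) = 1 := by
  rw [sg, r_symm (CLoc_mem hy), norm_inv, Complex.norm_real, Real.norm_of_nonneg (hh_pos A j y).le,
    inv_mul_cancel₀ (hh_pos A j y).ne']

theorem zc_sg (hy : y ∈ A.base j) : zc A j (sg A j y) = y := by
  rw [zc, tau_sg hy]

theorem lu_sg (hy : y ∈ A.base j) : lu A j (sg A j y) = 1 := by
  rw [lu, tau_sg hy]
  exact inv_mul_cancel₀ (CLoc_ne A j y)

theorem norm_lu (hc : c ∈ (A.τ j).source) : ‖lu A j c‖ = A.r c := by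
  have h := r_symm ((A.τ j).map_source hc)
  rw [(A.τ j).left_inv hc] at h
  rw [h, lu, norm_mul, Complex.norm_real, Real.norm_of_nonneg (hh_pos A j _).le]

theorem lu_ne (hc : c ∈ (A.τ j).source) : lu A j c ≠ 0 := by
  rw [← norm_pos_iff, norm_lu hc]
  exact A.r_pos c

theorem act_lu (hc : c ∈ (A.τ j).source) : A.act (lu A j c) (sg A j (zc A j c)) = c := by
  rw [sg, ← symm_act (CLoc_mem (zc_mem hc)) (lu_ne hc), lu, zc,
    mul_inv_cancel_right₀ (CLoc_ne A j _)]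
  exact (A.τ j).left_inv hc

theorem zc_act (hc : c ∈ (A.τ j).source) {l : ℂ} (hl : l ≠ 0) : zc A j (A.act l c) = zc A j c := by
  rw [zc, A.act_eq j c hc l hl, zc]

theorem lu_act (hc : c ∈ (A.τ j).source) {l : ℂ} (hl : l ≠ 0) :
    lu A j (A.act l c) = l * lu A j c := by
  rw [lu, A.act_eq j c hc l hl, lu, mul_assoc]

theorem CLoc_sm (A : Cone (V N) C) (j : A.ι) :
    ContDiffOn ℝ ∞ (fun y => (y, ((hh A j y : ℝ) : ℂ)⁻¹)) (A.base j) := by
  refine contDiffOn_id.prodMk ?_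
  simp only [← Complex.ofReal_inv]
  exact Complex.ofRealCLM.contDiff.comp_contDiffOn ((hh_sm A j).inv fun y _ => (hh_pos A j y).ne')

theorem sg_cont (A : Cone (V N) C) (j : A.ι) : ContinuousOn (sg A j) (A.base j) :=
  (A.τ j).continuousOn_symm.comp (CLoc_sm A j).continuousOn fun _ hy => CLoc_mem hy

theorem lc_sm (hu : A.Sm u) (j : A.ι) : ContDiffOn ℝ ∞ (lc A j u) (A.base j) :=
  (hu j).comp (CLoc_sm A j) fun _ hy => CLoc_mem hy

theorem eq_lc (hu : A.Hom k u) (hc : c ∈ (A.τ j).source) :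
    u c = lu A j c ^ k * lc A j u (zc A j c) := by
  rw [lc, ← hu _ _ (lu_ne hc), act_lu hc]

theorem symm_eq_lc (hu : A.Hom k u) (hp : p ∈ (A.τ j).target) :
    u ((A.τ j).symm p) = (p.2 * hh A j p.1) ^ k * lc A j u p.1 := by
  rw [eq_lc hu ((A.τ j).map_target hp), lu, zc, (A.τ j).right_inv hp]

theorem CLoc_tr (u : C → ℂ) (hp : p ∈ (A.τ i).target) (hj : (A.τ i).symm p ∈ (A.τ j).source) :
    ContDiffAt ℝ ∞ (A.τ j ∘ (A.τ i).symm) p ∧
      u ∘ (A.τ i).symm =ᶠ[𝓝 p] (u ∘ (A.τ j).symm) ∘ (A.τ j ∘ (A.τ i).symm) := by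
  have h : (A.τ i).target ∩ (A.τ i).symm ⁻¹' (A.τ j).source ∈ 𝓝 p :=
    ((A.τ i).isOpen_inter_preimage_symm (A.τ j).open_source).mem_nhds ⟨hp, hj⟩
  refine ⟨(A.smooth j i).contDiffAt h, mem_of_superset h fun q hq => ?_⟩
  change u ((A.τ i).symm q) = u ((A.τ j).symm (A.τ j ((A.τ i).symm q)))
  rw [(A.τ j).left_inv hq.2]

/-- smoothness can be checked in one chart around each point -/
theorem sm_of_cover (h : ∀ c, ∃ j, c ∈ (A.τ j).source ∧
    ContDiffAt ℝ ∞ (u ∘ (A.τ j).symm) (A.τ j c)) : A.Sm u := by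
  intro i p hp
  obtain ⟨j, hj, hu⟩ := h ((A.τ i).symm p)
  obtain ⟨h1, h2⟩ := CLoc_tr u hp hj
  exact ((ContDiffAt.comp p (f := A.τ j ∘ (A.τ i).symm) hu h1).congr_of_eventuallyEq
    h2).contDiffWithinAt

/-- holomorphy can be checked in one chart around each point -/
theorem hol_of_cover (hJ : A.JFacts) (hu : A.Sm u)
    (h : ∀ c, ∃ j, c ∈ (A.τ j).source ∧ A.dbar j u (A.τ j c) = 0) : A.Hol u := by
  intro i p hp
  obtain ⟨j, hj, h0⟩ := h ((A.τ i).symm p)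
  obtain ⟨h1, h2⟩ := CLoc_tr u hp hj
  have h3 : DifferentiableAt ℝ (u ∘ (A.τ j).symm) ((A.τ j ∘ (A.τ i).symm) p) :=
    ((hu j).contDiffAt ((A.τ j).open_target.mem_nhds ((A.τ j).map_source hj))).differentiableAt
      (by simp)
  refine ContinuousLinearMap.ext fun v => ?_
  have h4 := DFunLike.congr_fun h0 (fderiv ℝ (A.τ j ∘ (A.τ i).symm) p v)
  rw [Cone.dbar, h2.fderiv_eq, fderiv_comp p h3 (h1.differentiableAt (by simp))]
  simp only [Cone.dbar, ContinuousLinearMap.add_apply, ContinuousLinearMap.smul_apply,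
    ContinuousLinearMap.comp_apply] at h4 ⊢
  rw [hJ.compat j i p hp hj v]
  exact h4

end Vale.Agent.P292E
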