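import Vale.Agent.P292E.CGeo
import Vale.Agent.P292E.CTr

/-! The finite atlas. -/

set_option maxSynthPendingDepth 3

open scoped ContDiff Topology ComplexConjugate
open Set Filter MeasureTheory Metric
open Vale.Agent.P292 (Cone)

noncomputable section

namespace Vale.Agent.P292E

variable {N : ℕ} {C : Type} [TopologicalSpace C]

variable {A : Cone (V N) C}

theorem CUC_cut {K U : Set (V N)} (hK : IsCompact K) (hU : IsOpen U) (hKU : K ⊆ U) :
    ∃ χ : V N → ℝ, (∀ᶠ y in 𝓝ˢ K, χ y = 1) ∧ Tst U (fun y => (χ y : ℂ)) ∧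
      IsCompact (tsupport χ) ∧ tsupport χ ⊆ U := by
  obtain ⟨L, hL, h1, h2⟩ := exists_compact_between hK hU hKU
  obtain ⟨f, f1, f0, -⟩ := exists_contMDiffMap_one_nhds_of_subset_interior
    (modelWithCornersSelf ℝ (V N)) (n := ⊤) hK.isClosed h1
  have hs : tsupport f ⊆ L :=
    closure_minimal (fun y hy => by_contra fun h => hy (f0 y h)) hL.isClosed
  have hs' : tsupport (fun y => ((f y : ℝ) : ℂ)) ⊆ L :=
    closure_minimal (fun y hy => by_contra fun h => hy (by simp [f0 y h])) hL.isClosed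
  exact ⟨f, f1, ⟨Complex.ofRealCLM.contDiff.comp f.contMDiff.contDiff,
    hL.of_isClosed_subset (isClosed_tsupport _) hs', hs'.trans h2⟩,
    hL.of_isClosed_subset (isClosed_tsupport _) hs, hs.trans h2⟩

theorem CUC_zero (U : Set (V N)) : Tst U fun _ => ((0 : ℝ) : ℂ) := by
  have h : tsupport (fun _ : V N => ((0 : ℝ) : ℂ)) = ∅ := by
    rw [tsupport_eq_empty_iff]
    funext y
    simp
  exact ⟨contDiff_const, by rw [HasCompactSupport, h]; exact isCompact_empty,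
    by rw [h]; exact empty_subset _⟩

theorem CUC_loc (A : Cone (V N) C) (c : C) : ∃ (j : A.ι) (χ κ : V N → ℝ),
    Tst (A.base j) (fun y => (χ y : ℂ)) ∧ Tst (A.base j) (fun y => (κ y : ℂ)) ∧
      (∀ y ∈ tsupport κ, χ y = 1) ∧
      {c' | c' ∈ (A.τ j).source ∧ κ (zc A j c') = 1} ∈ 𝓝 c := by
  obtain ⟨j, hj⟩ := A.cover c
  obtain ⟨κ, k1, k2, k3, k4⟩ := CUC_cut isCompact_singleton (A.base_open j)
    (singleton_subset_iff.2 (zc_mem hj))
  obtain ⟨χ, c1, c2, -, -⟩ := CUC_cut k3 (A.base_open j) k4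
  refine ⟨j, χ, κ, c2, k2, fun y hy => c1.self_of_nhdsSet y hy, ?_⟩
  rw [nhdsSet_singleton] at k1
  have hz : ContinuousAt (zc A j) c := ((A.τ j).continuousAt hj).fst
  exact inter_mem ((A.τ j).open_source.mem_nhds hj) (hz.eventually k1)

theorem CUC_ne (A : Cone (V N) C) (c : C) : ((A.r c : ℝ) : ℂ)⁻¹ ≠ 0 :=
  inv_ne_zero (by exact_mod_cast (A.r_pos c).ne')

theorem CUC_r (A : Cone (V N) C) (c : C) : A.r (A.act ((A.r c : ℝ) : ℂ)⁻¹ c) = 1 := by
  rw [A.r_act _ _ (CUC_ne A c), norm_inv, Complex.norm_real, Real.norm_of_nonneg (A.r_pos c).le,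
    inv_mul_cancel₀ (A.r_pos c).ne']

theorem exists_cut (j j' : A.ι) {K K' : Set (V N)} (hK : IsCompact K) (hKj : K ⊆ A.base j)
    (hK' : IsCompact K') (hKj' : K' ⊆ A.base j') :
    ∃ (ι : Type) (_ : Fintype ι) (φ : ι → A.ι) (a a' : ι) (χ κ : ι → V N → ℝ), φ a = j ∧ φ a' = j' ∧
      (∀ y ∈ K, χ a y = 1) ∧ (∀ y ∈ K', χ a' y = 1) ∧
      (∀ b, Tst (A.base (φ b)) fun y => (χ b y : ℂ)) ∧
      (∀ b, Tst (A.base (φ b)) fun y => (κ b y : ℂ)) ∧ (∀ b, ∀ y ∈ tsupport (κ b), χ b y = 1) ∧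
      ∀ c, ∃ b, c ∈ (A.τ (φ b)).source ∧ κ b (zc A (φ b) c) = 1 := by
  choose φ χ κ h1 h2 h3 h4 using CUC_loc A
  obtain ⟨t, -, ht⟩ := A.compact.elim_nhds_subcover _ fun c _ => h4 c
  obtain ⟨f, f1, f2, -, -⟩ := CUC_cut hK (A.base_open j) hKj
  obtain ⟨g, g1, g2, -, -⟩ := CUC_cut hK' (A.base_open j') hKj'
  have h0 : tsupport (fun _ : V N => (0 : ℝ)) = ∅ := tsupport_eq_empty_iff.2 rfl
  refine ⟨t ⊕ Bool, inferInstance, Sum.elim (fun c => φ c) fun b => cond b j j', .inr true,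
    .inr false, Sum.elim (fun c => χ c) fun b => cond b f g,
    Sum.elim (fun c => κ c) fun _ _ => 0, rfl, rfl, fun y hy => f1.self_of_nhdsSet y hy,
    fun y hy => g1.self_of_nhdsSet y hy, ?_, ?_, ?_, fun c => ?_⟩
  · rintro (c | _ | _)
    · exact h1 c
    · exact g2
    · exact f2
  · rintro (c | b)
    · exact h2 c
    · exact CUC_zero _
  · rintro (c | b)
    · exact h3 c
    · intro y hy
      exact absurd (h0 ▸ hy : y ∈ (∅ : Set (V N))) (notMem_empty y)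
  · obtain ⟨x, hx, hc⟩ := mem_iUnion₂.1 (ht (CUC_r A c))
    have hm := (act_mem_iff (CUC_ne A c)).1 hc.1
    refine ⟨.inl ⟨x, hx⟩, hm, ?_⟩
    have := hc.2
    rwa [zc_act hm (CUC_ne A c)] at this

theorem exists_uc [T2Space C] [Nonempty C] (hJ : A.JFacts) (j j' : A.ι) {K K' : Set (V N)}
    (hK : IsCompact K) (hKj : K ⊆ A.base j) (hK' : IsCompact K') (hKj' : K' ⊆ A.base j') :
    ∃ (U : UC N {c // A.r c = 1}) (φ : U.ι → A.ι) (a a' : U.ι), φ a = j ∧ φ a' = j' ∧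
      (∀ y ∈ K, U.χ a y = 1) ∧ (∀ y ∈ K', U.χ a' y = 1) ∧ ∀ b, U.B b = A.base (φ b) ∧
        (∀ c, c ∈ U.O b ↔ c.1 ∈ (A.τ (φ b)).source) ∧ (∀ c, U.z b c = zc A (φ b) c.1) ∧
        (∀ c, U.l b c = lu A (φ b) c.1) ∧ (∀ y ∈ A.base (φ b), (U.σ b y).1 = sg A (φ b) y) ∧
        U.J b = JV A (φ b) ∧ U.A b = AV A (φ b) := by
  classical
  obtain ⟨ι, _, φ, a, a', χ, κ, ha, ha', h1, h2, h3, h4, h5, h6⟩ := exists_cut j j' hK hKj hK' hKj'
  obtain ⟨σ, hσ⟩ : ∃ σ : A.ι → V N → {c // A.r c = 1},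
      ∀ b, ∀ y ∈ A.base b, (σ b y).1 = sg A b y :=
    ⟨fun b y => if h : y ∈ A.base b then ⟨sg A b y, r_sg h⟩ else
      ⟨_, CUC_r A (Classical.arbitrary C)⟩, fun b y hy => by simp only [dif_pos hy]⟩
  have hW : ∀ a b, {y | y ∈ A.base a ∧ (σ a y).1 ∈ (A.τ b).source} =
      {y | y ∈ A.base a ∧ sg A a y ∈ (A.τ b).source} := fun a b =>
    Set.ext fun y => and_congr_right fun hy => by rw [hσ a y hy]
  have hev : ∀ {β : Type} (g : C → β) (a : A.ι), ∀ y ∈ A.base a,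
      (fun y => g (σ a y).1) =ᶠ[𝓝 y] fun y => g (sg A a y) := fun g a y hy => by
    filter_upwards [(A.base_open a).mem_nhds hy] with z hz
    rw [hσ a z hz]
  refine ⟨
    { ι := ι
      B := fun b => A.base (φ b)
      O := fun b => {c | c.1 ∈ (A.τ (φ b)).source}
      z := fun b c => zc A (φ b) c.1
      l := fun b c => lu A (φ b) c.1
      σ := fun b => σ (φ b)
      z_mem := fun b c hc => zc_mem hc
      σ_mem := fun b y hy => by
        show (σ (φ b) y).1 ∈ (A.τ (φ b)).source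
        rw [hσ _ y hy]
        exact sg_mem hy
      z_σ := fun b y hy => by rw [hσ _ y hy, zc_sg hy]
      l_σ := fun b y hy => by rw [hσ _ y hy, lu_sg hy]
      l_norm := fun b c hc => (norm_lu hc).trans c.2
      mem_iff := fun a b c hc => by
        show (σ (φ a) _).1 ∈ (A.τ (φ b)).source ↔ c.1 ∈ (A.τ (φ b)).source
        rw [hσ _ _ (zc_mem hc), ← act_mem_iff (lu_ne hc), act_lu hc]
      z_eq := fun a b c hc hb => by
        have hm : sg A (φ a) (zc A (φ a) c.1) ∈ (A.τ (φ b)).source := by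
          rw [← act_mem_iff (lu_ne hc), act_lu hc]
          exact hb
        rw [hσ _ _ (zc_mem hc), ← zc_act hm (lu_ne hc), act_lu hc]
      l_eq := fun a b c hc hb => by
        have hm : sg A (φ a) (zc A (φ a) c.1) ∈ (A.τ (φ b)).source := by
          rw [← act_mem_iff (lu_ne hc), act_lu hc]
          exact hb
        rw [hσ _ _ (zc_mem hc), ← lu_act hm (lu_ne hc), act_lu hc]
      W_open := fun a b => (hW (φ a) (φ b)).symm ▸ Wc_open (φ a) (φ b)
      z_sm := fun a b => ((hW (φ a) (φ b)).symm ▸ zc_sm (φ a) (φ b) :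
        ContDiffOn ℝ ∞ _ {y | y ∈ A.base (φ a) ∧ (σ (φ a) y).1 ∈ (A.τ (φ b)).source}).congr
          fun y hy => by rw [hσ _ y hy.1]
      l_sm := fun a b => ((hW (φ a) (φ b)).symm ▸ lu_sm (φ a) (φ b) :
        ContDiffOn ℝ ∞ _ {y | y ∈ A.base (φ a) ∧ (σ (φ a) y).1 ∈ (A.τ (φ b)).source}).congr
          fun y hy => by rw [hσ _ y hy.1]
      cl := fun a b L hL hLb => by
        have e : {y | y ∈ A.base (φ a) ∧ ¬((σ (φ a) y).1 ∈ (A.τ (φ b)).source ∧
            zc A (φ b) (σ (φ a) y).1 ∈ L)} = {y | y ∈ A.base (φ a) ∧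
            ¬(sg A (φ a) y ∈ (A.τ (φ b)).source ∧ zc A (φ b) (sg A (φ a) y) ∈ L)} :=
          Set.ext fun y => and_congr_right fun hy => by rw [hσ _ y hy]
        exact e.symm ▸ cl_open (φ a) (φ b) hL hLb
      χ := χ
      κ := κ
      χ_tst := h3
      κ_tst := h4
      χ_one := h5
      cover := fun c => h6 c.1
      J := fun b => JV A (φ b)
      A := fun b => AV A (φ b)
      geo := fun b => geo hJ (φ b)
      J_tr := fun a b y hy hb v => by
        have hb' : (σ (φ a) y).1 ∈ (A.τ (φ b)).source := hb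
        rw [hσ _ y hy] at hb'
        rw [(hev (zc A (φ b)) _ y hy).fderiv_eq, hσ _ y hy]
        exact JV_tr hJ _ _ hy hb' v
      A_tr := fun a b y hy hb v => by
        have hb' : (σ (φ a) y).1 ∈ (A.τ (φ b)).source := hb
        rw [hσ _ y hy] at hb'
        rw [(hev (zc A (φ b)) _ y hy).fderiv_eq, (hev (lu A (φ b)) _ y hy).fderiv_eq, hσ _ y hy]
        exact AV_tr hJ _ _ hy hb' v },
    φ, a, a', ha, ha', h1, h2,
    fun b => ⟨rfl, fun _ => Iff.rfl, fun _ => rfl, fun _ => rfl, hσ (φ b), rfl, rfl⟩⟩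

end Vale.Agent.P292E
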