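import Vale.Agent.P292E.CGeo
import Vale.Agent.P292E.EOpen

/-! Immersion at a point and separation of points. -/

set_option maxSynthPendingDepth 3

open scoped ContDiff Topology ComplexConjugate
open Set Filter MeasureTheory Metric
open Vale.Agent.P292 (Cone)

noncomputable section

namespace Vale.Agent.P292E

variable {N : ℕ} {C : Type} [TopologicalSpace C]

variable {A : Cone (V N) C}

/-- the holomorphic coordinates at a point -/
def eimmL (J : V N →L[ℝ] V N) (q : Fin N) : V N →L[ℝ] ℂ :=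
  (1 + ‖J‖)⁻¹ • (Complex.ofRealCLM.comp (EuclideanSpace.proj q) -
    Complex.I • Complex.ofRealCLM.comp ((EuclideanSpace.proj q).comp J))

theorem eimm_apply (J : V N →L[ℝ] V N) (q : Fin N) (v : V N) :
    eimmL J q v = ((1 + ‖J‖)⁻¹ : ℝ) * ((v q : ℂ) - Complex.I * (J v q : ℝ)) := by
  simp [eimmL]

theorem eimm_norm (J : V N →L[ℝ] V N) (q : Fin N) : ‖eimmL J q‖ ≤ 1 := by
  refine ContinuousLinearMap.opNorm_le_bound _ zero_le_one fun v => ?_
  have h0 : 0 < 1 + ‖J‖ := by positivity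
  rw [eimm_apply, norm_mul, Complex.norm_real, Real.norm_of_nonneg (inv_pos.2 h0).le,
    inv_mul_le_iff₀ h0]
  refine (norm_sub_le _ _).trans ?_
  rw [norm_mul, Complex.norm_I, Complex.norm_real, Complex.norm_real]
  linarith [PiLp.norm_apply_le v q, PiLp.norm_apply_le (J v) q, J.le_opNorm v]

theorem eimm_J {J : V N →L[ℝ] V N} (h : ∀ v, J (J v) = -v) (q : Fin N) (v : V N) :
    eimmL J q (J v) = Complex.I * eimmL J q v := by
  rw [eimm_apply, eimm_apply, h]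
  simp only [PiLp.neg_apply, Complex.ofReal_neg]
  linear_combination (((1 + ‖J‖)⁻¹ : ℝ) : ℂ) * (J v q : ℝ) * Complex.I_mul_I

theorem eimm_low (J : V N →L[ℝ] V N) (q : Fin N) (v : V N) :
    |v q| ≤ (1 + ‖J‖) * ‖eimmL J q v‖ := by
  have h0 : 0 < 1 + ‖J‖ := by positivity
  have h := Complex.abs_re_le_norm (eimmL J q v)
  rw [← inv_mul_le_iff₀ h0]
  refine le_trans (le_of_eq ?_) h
  rw [eimm_apply, Complex.re_ofReal_mul, abs_mul, abs_of_pos (inv_pos.2 h0)]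
  simp

theorem eimm_zero {v : V N} (h : ∀ q, |v q| ≤ ‖v‖ / (N + 1)) : v = 0 := by
  have h1 : ‖v‖ ^ 2 ≤ N * (‖v‖ / (N + 1)) ^ 2 := by
    rw [EuclideanSpace.real_norm_sq_eq]
    refine (Finset.sum_le_sum fun q _ => sq_le_sq' (abs_le.1 (h q)).1 (abs_le.1 (h q)).2).trans ?_
    simp
  have h2 : (0 : ℝ) ≤ N := Nat.cast_nonneg N
  rw [div_pow, ← mul_div_assoc, le_div_iff₀ (by positivity)] at h1
  have h3 : ‖v‖ ^ 2 ≤ 0 := by
    linarith [mul_nonneg (sq_nonneg ‖v‖) h2, mul_nonneg (sq_nonneg ‖v‖) (sq_nonneg (N : ℝ))]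
  simpa using h3

theorem exists_imm (hJ : A.JFacts) (hP : PeakS A) (c : C) : ∃ (Φ : Fam A) (j : A.ι),
    c ∈ (A.τ j).source ∧ Function.Injective (fderiv ℝ (Φ.Φ ∘ (A.τ j).symm) (A.τ j c)) := by
  obtain ⟨j, hc⟩ := A.cover c
  have hp := (A.τ j).map_source hc
  obtain ⟨hx, hp2⟩ := target_fst hp
  generalize hq : A.τ j c = p at hp hx hp2
  have ha : 0 < 1 + ‖JV A j p.1‖ := by positivity
  obtain ⟨ε, hε, h1, h2⟩ : ∃ ε : ℝ, 0 < ε ∧ ε ≤ 1 / 2 ∧
      (1 + ‖JV A j p.1‖) * (2 * ε) = (N + 1 : ℝ)⁻¹ := by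
    refine ⟨(2 * ((1 + ‖JV A j p.1‖) * (N + 1)))⁻¹, by positivity, ?_, by field_simp⟩
    rw [one_div]
    refine inv_anti₀ two_pos (le_mul_of_one_le_right zero_le_two (one_le_mul_of_one_le_of_one_le
      (le_add_of_nonneg_right (norm_nonneg _)) (le_add_of_nonneg_left (Nat.cast_nonneg _))))
  obtain ⟨k₀, hk⟩ := hP j j p.1 hx p.1 hx ε hε
  obtain ⟨s₀, a1, a2, a3, a4, a5, -⟩ := hk (k₀ + 1) k₀.le_succ 1 0 (by simp) (by simp) (by simp)
  choose s b1 b2 b3 b4 b5 _ using fun q => hk (k₀ + 1) k₀.le_succ 0 (eimmL (JV A j p.1) q)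
    (by simp) (eimm_norm _ q) (eimm_J ((geo hJ j).J_sq _ hx) q)
  have hk1 : 0 < k₀ + 1 := k₀.succ_pos
  generalize k₀ + 1 = k at *
  let Φ : Fam A :=
    { κ := Option (Fin N)
      w := fun _ => k
      w_pos := fun _ => hk1
      Φ := fun c i => i.elim (s₀ c) fun q => s q c
      sm := Option.rec a1 b1
      hom := Option.rec a2 b2
      hol := Option.rec a3 b3 }
  refine ⟨Φ, j, hc, hq ▸ (injective_iff_map_eq_zero _).2 fun w hw => ?_⟩
  have hne : (p.2 * hh A j p.1) ^ k ≠ 0 :=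
    pow_ne_zero _ (mul_ne_zero hp2 (by exact_mod_cast (hh_pos A j p.1).ne'))
  have key : ∀ i, Dv (AV A j) k (lc A j fun c => Φ.Φ c i) p.1 w.1 =
      -(k * tt A j p w * lc A j (fun c => Φ.Φ c i) p.1) := fun i => by
    have h := (EOpen_fd Φ hp w i).symm.trans (congrFun hw i)
    rw [fderiv_lc (Φ.sm i) (Φ.hom i) hp] at h
    exact eq_neg_of_add_eq_zero_left ((mul_eq_zero.1 h).resolve_left hne)
  have hs : 0 < √(k : ℝ) := Real.sqrt_pos.2 (by exact_mod_cast hk1)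
  have k1 : ‖k * tt A j p w‖ ≤ √k * ‖w.1‖ := by
    have l1 := a5 w.1
    have l2 : Dv (AV A j) k (lc A j s₀) p.1 w.1 = _ := key none
    have l3 : 1 / 2 ≤ ‖lc A j s₀ p.1‖ := by
      have := norm_sub_norm_le (1 : ℂ) (lc A j s₀ p.1)
      rw [norm_one, norm_sub_rev] at this
      linarith
    rw [l2, zero_apply, mul_zero, sub_zero, norm_neg, norm_mul] at l1
    have l4 := mul_le_mul_of_nonneg_left l3 (norm_nonneg (k * tt A j p w))
    have l5 := mul_le_mul_of_nonneg_right h1 (mul_nonneg hs.le (norm_nonneg w.1))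
    change _ * ‖lc A j s₀ p.1‖ ≤ _ at l1
    linarith
  have k2 : w.1 = 0 := eimm_zero fun q => by
    have l1 := b5 q w.1
    have l2 : Dv (AV A j) k (lc A j (s q)) p.1 w.1 = -(_ * lc A j (s q) p.1) := key (some q)
    have l3 := b4 q
    rw [sub_zero] at l3
    have l4 := norm_sub_norm_le ((√k : ℝ) * eimmL (JV A j p.1) q w.1)
      (Dv (AV A j) k (lc A j (s q)) p.1 w.1)
    rw [norm_sub_rev] at l4
    replace l4 := l4.trans l1
    rw [l2, norm_neg, norm_mul, norm_mul _ (lc _ _ _ _), Complex.norm_real,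
      Real.norm_of_nonneg hs.le] at l4
    have l5 := mul_le_mul k1 l3 (norm_nonneg _) (by positivity)
    have l6 : ‖eimmL (JV A j p.1) q w.1‖ ≤ 2 * ε * ‖w.1‖ :=
      le_of_mul_le_mul_left (by linarith) hs
    refine (eimm_low _ q _).trans ((mul_le_mul_of_nonneg_left l6 ha.le).trans (le_of_eq ?_))
    rw [← mul_assoc, h2, div_eq_inv_mul]
  rw [k2, norm_zero, mul_zero, norm_le_zero_iff, tt, k2] at k1
  refine Prod.ext k2 ?_
  simpa [hk1.ne', hp2] using k1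

theorem exists_sep (hJ : A.JFacts) (hP : PeakS A) {c c' : C} (hc : A.r c = 1) (hc' : A.r c' = 1)
    {t : ℝ} (ht : t ∈ Icc (0 : ℝ) 1) (hne : ¬(t = 1 ∧ c' = c)) :
    ∃ (k : ℕ) (s : C → ℂ), 0 < k ∧ A.Sm s ∧ A.Hom k s ∧ A.Hol s ∧ s c ≠ (t : ℂ) ^ k * s c' := by
  have _ := hJ
  obtain ⟨j, hj⟩ := A.cover c
  obtain ⟨j', hj'⟩ := A.cover c'
  obtain ⟨k₀, hk⟩ := hP j j' _ (zc_mem hj) _ (zc_mem hj') (1 / 4) (by norm_num)
  have n1 := (norm_lu hj).trans hc
  have H : ∀ k, k₀ ≤ k → ∃ s, A.Sm s ∧ A.Hom k s ∧ A.Hol s ∧ 3 / 4 ≤ ‖lc A j s (zc A j c)‖ ∧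
      (¬(sg A j' (zc A j' c') ∈ (A.τ j).source ∧ zc A j (sg A j' (zc A j' c')) = zc A j c) →
        ‖lc A j' s (zc A j' c')‖ ≤ 1 / 4) := fun k h => by
    obtain ⟨s, a1, a2, a3, a4, -, a5⟩ := hk k h 1 0 (by simp) (by simp) (by simp)
    have := norm_sub_norm_le (1 : ℂ) (lc A j s (zc A j c))
    rw [norm_one, norm_sub_rev] at this
    exact ⟨s, a1, a2, a3, by linarith, a5⟩
  by_cases h : sg A j' (zc A j' c') ∈ (A.τ j).source ∧ zc A j (sg A j' (zc A j' c')) = zc A j c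
  · have h1 : c' ∈ (A.τ j).source := act_lu hj' ▸ A.act_mem j _ h.1 _ (lu_ne hj')
    have h2 : zc A j c' = zc A j c := by rw [← h.2, ← zc_act h.1 (lu_ne hj'), act_lu hj']
    by_contra! hcon
    have key : ∀ k, k₀ + 1 ≤ k → lu A j c ^ k = (t * lu A j c') ^ k := fun k hk => by
      obtain ⟨s, a1, a2, a3, a4, -⟩ := H k (by omega)
      have h3 := hcon k s (by omega) a1 a2 a3
      rw [eq_lc a2 hj, eq_lc a2 h1, h2, ← mul_assoc, ← mul_pow] at h3
      exact mul_right_cancel₀ (norm_pos_iff.1 (by linarith)) h3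
    have h4 := key (k₀ + 1 + 1) (by omega)
    rw [pow_succ, pow_succ _ (k₀ + 1), ← key _ le_rfl] at h4
    have h5 := mul_left_cancel₀ (pow_ne_zero _ (lu_ne hj)) h4
    have h6 := congrArg norm h5
    rw [norm_mul, n1, norm_lu h1, hc', mul_one, Complex.norm_real, Real.norm_of_nonneg ht.1] at h6
    refine hne ⟨h6.symm, ?_⟩
    rw [← h6, Complex.ofReal_one, one_mul] at h5
    rw [← act_lu h1, h2, ← h5, act_lu hj]
  · obtain ⟨s, a1, a2, a3, a4, a5⟩ := H (k₀ + 1) k₀.le_succ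
    refine ⟨k₀ + 1, s, k₀.succ_pos, a1, a2, a3, fun h3 => ?_⟩
    have h4 := congrArg norm h3
    rw [eq_lc a2 hj, eq_lc a2 hj', norm_mul, norm_mul, norm_mul, norm_pow, norm_pow, norm_pow, n1,
      norm_lu hj', hc', one_pow, one_mul, one_mul, Complex.norm_real,
      Real.norm_of_nonneg ht.1] at h4
    have h5 := mul_le_of_le_one_left (norm_nonneg (lc A j' s (zc A j' c')))
      (pow_le_one₀ (n := k₀ + 1) ht.1 ht.2)
    linarith [a5 h]

end Vale.Agent.P292E
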