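import Vale.Agent.P292E.PkPsi

/-! The error of the peak functions in the mean. -/

set_option maxSynthPendingDepth 3

open scoped ContDiff Topology ComplexConjugate
open Set Filter MeasureTheory Metric

noncomputable section

namespace Vale.Agent.P292E

variable {N : ℕ}

variable {J : V N → V N →L[ℝ] V N} {A : V N → V N →L[ℝ] ℝ} {B : Set (V N)} {x₀ : V N}
  {ψ : V N → ℂ} {c : ℝ}

theorem pkInt_flat {F : Type} [NormedAddCommGroup F] [NormedSpace ℝ F] {f : V N → F} {δ : ℝ}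
    (i : ℕ) (hs : IsOpen B) (hf : ContDiffOn ℝ ∞ f B) (hB : closedBall x₀ δ ⊆ B)
    (h0 : ∀ n < i, iteratedFDeriv ℝ n f x₀ = 0) :
    ∃ C, 0 ≤ C ∧ ∀ y ∈ closedBall x₀ δ, ‖f y‖ ≤ C * ‖y - x₀‖ ^ i := by
  obtain ⟨C, hC, hb⟩ := exists_Bd i hs hf (isCompact_closedBall x₀ δ) hB
  refine ⟨C, hC, fun y hy => ?_⟩
  have h1 := BdC_flat hs hf hB h0 (hb i le_rfl) i 0 (zero_add i) y hy
  rwa [norm_iteratedFDeriv_zero] at h1

theorem pkInt_one {F : Type} [NormedAddCommGroup F] [NormedSpace ℝ F] {f : V N → F}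
    (h : f x₀ = 0) : ∀ n < 1, iteratedFDeriv ℝ n f x₀ = 0 := fun n hn => by
  interval_cases n
  rw [← norm_eq_zero, norm_iteratedFDeriv_zero, h, norm_zero]

theorem pkInt_num {c t : ℝ} (hc : 0 < c) (ht : 0 ≤ t) :
    (Real.exp (-c * t ^ 2) * (1 + t) ^ 3) ^ 2 ≤ Real.exp (9 / c) * Real.exp (-c * t ^ 2) := by
  have h1 : (1 + t) ^ 3 ≤ Real.exp t ^ 3 :=
    pow_le_pow_left₀ (by linarith) (by linarith [Real.add_one_le_exp t]) 3
  have h2 : 6 * t - c * t ^ 2 ≤ 9 / c := by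
    rw [le_div_iff₀ hc]
    nlinarith [sq_nonneg (c * t - 3)]
  refine (pow_le_pow_left₀ (by positivity)
    (mul_le_mul_of_nonneg_left h1 (Real.exp_pos _).le) 2).trans ?_
  rw [← Real.exp_nat_mul, ← Real.exp_add, ← Real.exp_nat_mul, ← Real.exp_add, Real.exp_le_exp]
  push_cast
  linarith

theorem pkInt_pt {a b e χ q : ℂ} {C₁ C₂ C₃ r t s : ℝ} (hr : 0 ≤ r) (hs : 1 ≤ s) (ht : t = s * r)
    (h₁ : 0 ≤ C₁) (h₂ : 0 ≤ C₂) (h₃ : 0 ≤ C₃) (ha : ‖a‖ ≤ C₁ * r) (hb : ‖b‖ ≤ C₂ * r)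
    (he : ‖e‖ ≤ C₃ * r ^ 2) (hχ : ‖χ‖ ≤ 1) (hq : ‖q‖ ≤ 1 + t) :
    ‖a * q + χ * (s * b) + (s ^ 2 : ℝ) * e * (χ * q)‖ ≤ (C₁ + C₂ + C₃) * (1 + t) ^ 3 := by
  have h0 : 0 ≤ s := by linarith
  have ht0 : 0 ≤ t := ht ▸ mul_nonneg h0 hr
  have hrt : r ≤ t := ht ▸ le_mul_of_one_le_left hr hs
  have a1 : ‖a * q‖ ≤ C₁ * (1 + t) ^ 3 := by
    rw [norm_mul]
    calc _ ≤ C₁ * t * (1 + t) := by gcongr; exact ha.trans (by gcongr)
      _ = C₁ * (t * (1 + t)) := by ring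
      _ ≤ _ := mul_le_mul_of_nonneg_left (by nlinarith [mul_nonneg ht0 (mul_nonneg ht0 ht0)]) h₁
  have a2 : ‖χ * (s * b)‖ ≤ C₂ * (1 + t) ^ 3 := by
    rw [norm_mul, norm_mul, Complex.norm_real, Real.norm_of_nonneg h0]
    calc _ ≤ 1 * (s * (C₂ * r)) := by gcongr
      _ = C₂ * t := by rw [ht]; ring
      _ ≤ _ := mul_le_mul_of_nonneg_left (by nlinarith [mul_nonneg ht0 (mul_nonneg ht0 ht0)]) h₂
  have a3 : ‖((s ^ 2 : ℝ) : ℂ) * e * (χ * q)‖ ≤ C₃ * (1 + t) ^ 3 := by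
    rw [norm_mul, norm_mul, norm_mul, Complex.norm_real, Real.norm_of_nonneg (sq_nonneg s)]
    calc _ ≤ s ^ 2 * (C₃ * r ^ 2) * (1 * (1 + t)) := by gcongr
      _ = C₃ * (t ^ 2 * (1 + t)) := by rw [ht]; ring
      _ ≤ _ := mul_le_mul_of_nonneg_left (by nlinarith [mul_nonneg ht0 (mul_nonneg ht0 ht0)]) h₃
  have a4 := norm_add₃_le (a := a * q) (b := χ * (s * b)) (c := ((s ^ 2 : ℝ) : ℂ) * e * (χ * q))
  linarith

theorem pkInt_gauss (x₀ : V N) {b : ℝ} (hb : 0 < b) :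
    Integrable (fun y : V N => Real.exp (-b * ‖y - x₀‖ ^ 2)) ∧
      ∫ y : V N, Real.exp (-b * ‖y - x₀‖ ^ 2) = √Real.pi ^ N * (√b)⁻¹ ^ N := by
  have h1 := GaussianFourier.integral_rexp_neg_mul_sq_norm (V := V N) hb
  have h2 : 0 < Real.pi / b := div_pos Real.pi_pos hb
  have h3 : Integrable fun y : V N => Real.exp (-b * ‖y‖ ^ 2) :=
    Integrable.of_integral_ne_zero (by rw [h1]; positivity)
  refine ⟨h3.comp_sub_right x₀, ?_⟩
  rw [integral_sub_right_eq_self (fun y : V N => Real.exp (-b * ‖y‖ ^ 2)) x₀, h1,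
    finrank_euclideanSpace_fin, ← mul_pow, ← div_eq_mul_inv, ← Real.sqrt_div Real.pi_pos.le,
    Real.sqrt_eq_rpow, ← Real.rpow_natCast, ← Real.rpow_mul h2.le]
  congr 1
  ring

theorem pk_int (h : Geo J A B) (hψ : Psi J A x₀ ψ c) {δ : ℝ} (hδ : 0 < δ)
    (hB : closedBall x₀ δ ⊆ B) : ∃ (χ : V N → ℂ) (C : ℝ), 0 ≤ C ∧ Tst B χ ∧
      tsupport χ ⊆ closedBall x₀ δ ∧ (∀ y ∈ closedBall x₀ (δ / 2), χ y = 1) ∧
      ∀ k : ℕ, 1 ≤ k → ∀ (α : ℂ) (ℓ : V N →L[ℝ] ℂ), ‖α‖ ≤ 1 → ‖ℓ‖ ≤ 1 →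
        (∀ v, ℓ (J x₀ v) = Complex.I * ℓ v) →
        ∫ y in closedBall x₀ δ, ∑ p, ‖Dbv J A k (fun y => χ y * pk ψ x₀ k α ℓ y) y (ee p)‖ ^ 2 ≤
          C * (√k)⁻¹ ^ N := by
  let β : ContDiffBump x₀ := ⟨δ / 2, δ, half_pos hδ, half_lt_self hδ⟩
  obtain ⟨χ, hχ⟩ : ∃ χ : V N → ℂ, χ = fun y => (β y : ℂ) := ⟨_, rfl⟩
  have c1 : ContDiff ℝ ∞ χ := hχ ▸ Complex.ofRealCLM.contDiff.comp β.contDiff
  have c2 : tsupport χ ⊆ closedBall x₀ δ := by
    rw [hχ]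
    exact (tsupport_comp_subset Complex.ofReal_zero β).trans β.tsupport_eq.subset
  have c3 : ∀ y ∈ closedBall x₀ (δ / 2), χ y = 1 := fun y hy => by
    simp only [hχ, β.one_of_mem_closedBall hy, Complex.ofReal_one]
  have c4 : ∀ y, ‖χ y‖ ≤ 1 := fun y => by
    simp only [hχ, Complex.norm_real, Real.norm_of_nonneg β.nonneg, β.le_one]
  have c5 : fderiv ℝ χ x₀ = 0 := by
    have e : χ =ᶠ[𝓝 x₀] fun _ => 1 := mem_of_superset (closedBall_mem_nhds x₀ (half_pos hδ)) c3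
    rw [e.fderiv_eq, fderiv_fun_const, Pi.zero_apply]
  have hne : ∀ p : Fin N, ‖ee p‖ = 1 := fun p => by simp [ee]
  obtain ⟨C₁, h₁, b₁⟩ := pkInt_flat 1 h.opn (BdC_fderiv h.opn c1.contDiffOn) hB (pkInt_one c5)
  obtain ⟨C₀, h₀, b₀⟩ := pkInt_flat (x₀ := x₀) 0 h.opn h.J_sm hB fun n hn => absurd hn (by omega)
  obtain ⟨C₂, h₂, b₂⟩ := pkInt_flat (f := fun y => J y - J x₀) 1 h.opn
    (h.J_sm.sub contDiffOn_const) hB (pkInt_one (sub_self _))
  choose C₃ h₃ b₃ using fun p => pkInt_flat 2 h.opn (Ef_sm h hψ.sm (ee p)) hB (hψ.err p)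
  have hc := hψ.pos
  obtain ⟨D, hD⟩ : ∃ D : Fin N → ℝ, D = fun p => C₁ * (1 + C₀) + C₂ + C₃ p := ⟨_, rfl⟩
  refine ⟨χ, (∑ p, D p ^ 2) * Real.exp (9 / c) * (√Real.pi ^ N * (√c)⁻¹ ^ N), by positivity,
    ⟨c1, (isCompact_closedBall x₀ δ).of_isClosed_subset (isClosed_tsupport _) c2, c2.trans hB⟩,
    c2, c3, fun k hk α ℓ hα hℓ hJ => ?_⟩
  have hk0 : (0 : ℝ) < k := by exact_mod_cast hk
  have hk1 : (1 : ℝ) ≤ √k := Real.one_le_sqrt.2 (by exact_mod_cast hk)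
  obtain ⟨g1, g2⟩ := pkInt_gauss x₀ (mul_pos hc hk0)
  have key : ∀ y ∈ closedBall x₀ δ, ∀ p,
      ‖Dbv J A k (fun y => χ y * pk ψ x₀ k α ℓ y) y (ee p)‖ ^ 2 ≤
        D p ^ 2 * (Real.exp (9 / c) * Real.exp (-(c * k) * ‖y - x₀‖ ^ 2)) := by
    intro y hy p
    have d1 := (c1.differentiable (by simp) y).hasFDerivAt
    have d2 := d1.mul (((ℓ.hasFDerivAt.comp y ((hasFDerivAt_id y).sub_const x₀)).const_mul
      ((√k : ℝ) : ℂ)).const_add α)
    have e1 : (fun y => χ y * pk ψ x₀ k α ℓ y) =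
        fun y => (χ y * (α + (√k : ℝ) * ℓ (y - x₀))) * Complex.exp (k * ψ y) :=
      funext fun y => (mul_assoc _ _ _).symm
    have e2 : fderiv ℝ (fun y => χ y * (α + (√k : ℝ) * ℓ (y - x₀))) y = _ := d2.fderiv
    have e3 := Dbv_exp (J := J) (A := A) (P := fun y => χ y * (α + (√k : ℝ) * ℓ (y - x₀))) k
      d2.differentiableAt (hψ.sm.differentiable (by simp) y) (ee p)
    have e4 : Dbv J A k (fun y => χ y * pk ψ x₀ k α ℓ y) y (ee p) = Complex.exp (k * ψ y) *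
        ((fderiv ℝ χ y (ee p) + Complex.I * fderiv ℝ χ y (J y (ee p))) *
          (α + (√k : ℝ) * ℓ (y - x₀)) +
        χ y * ((√k : ℝ) * (Complex.I * ℓ ((J y - J x₀) (ee p)))) +
        ((√k ^ 2 : ℝ) : ℂ) * Ef J A ψ y (ee p) * (χ y * (α + (√k : ℝ) * ℓ (y - x₀)))) := by
      rw [e1, e3, e2, Real.sq_sqrt hk0.le]
      simp only [add_apply, smul_apply, sub_apply, map_sub, hJ, smul_eq_mul, Function.comp_def,
        ContinuousLinearMap.comp_apply, ContinuousLinearMap.id_apply, id, Complex.ofReal_natCast]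
      linear_combination (Complex.exp (k * ψ y) * χ y * (√k : ℝ) * ℓ (ee p)) * Complex.I_mul_I
    have f0 := norm_nonneg (y - x₀)
    have f1 : ‖fderiv ℝ χ y (ee p) + Complex.I * fderiv ℝ χ y (J y (ee p))‖ ≤
        C₁ * (1 + C₀) * ‖y - x₀‖ := by
      have a1 := (fderiv ℝ χ y).le_opNorm (ee p)
      have a2 := (fderiv ℝ χ y).le_opNorm (J y (ee p))
      have a3 := (J y).le_opNorm (ee p)
      have a4 := b₁ y hy
      have a5 := b₀ y hy
      rw [hne, mul_one] at a1 a3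
      rw [pow_one] at a4
      rw [pow_zero, mul_one] at a5
      have a6 := mul_le_mul a4 (a3.trans a5) (norm_nonneg _) (by positivity)
      refine (norm_add_le _ _).trans ?_
      rw [norm_mul, Complex.norm_I, one_mul]
      linarith
    have f2 : ‖Complex.I * ℓ ((J y - J x₀) (ee p))‖ ≤ C₂ * ‖y - x₀‖ := by
      have a1 := ℓ.le_opNorm ((J y - J x₀) (ee p))
      have a2 := (J y - J x₀).le_opNorm (ee p)
      have a3 := b₂ y hy
      have a4 := mul_le_of_le_one_left (norm_nonneg ((J y - J x₀) (ee p))) hℓ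
      rw [hne, mul_one] at a2
      rw [pow_one] at a3
      rw [norm_mul, Complex.norm_I, one_mul]
      linarith
    have f3 : ‖α + (√k : ℝ) * ℓ (y - x₀)‖ ≤ 1 + √k * ‖y - x₀‖ := by
      refine (norm_add_le _ _).trans (add_le_add hα ?_)
      rw [norm_mul, Complex.norm_real, Real.norm_of_nonneg (Real.sqrt_nonneg _)]
      exact mul_le_mul_of_nonneg_left
        ((ℓ.le_opNorm _).trans (mul_le_of_le_one_left f0 hℓ)) (Real.sqrt_nonneg _)
    have f4 := pkInt_pt f0 hk1 rfl (by positivity) h₂ (h₃ p) f1 f2 (b₃ p y hy) (c4 y) f3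
    have f5 : -c * (√k * ‖y - x₀‖) ^ 2 = -(c * k) * ‖y - x₀‖ ^ 2 := by
      rw [mul_pow, Real.sq_sqrt hk0.le]
      ring
    have f6 : ‖Complex.exp (k * ψ y)‖ ≤ Real.exp (-c * (√k * ‖y - x₀‖) ^ 2) := by
      rw [Complex.norm_exp, Real.exp_le_exp, f5]
      have a1 := mul_le_mul_of_nonneg_left (hψ.up y) hk0.le
      simp only [Complex.mul_re, Complex.natCast_re, Complex.natCast_im, zero_mul, sub_zero]
      linarith
    have f7 := pkInt_num hc (mul_nonneg (Real.sqrt_nonneg k) f0)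
    rw [e4, norm_mul]
    refine (pow_le_pow_left₀ (by positivity)
      (mul_le_mul f6 f4 (norm_nonneg _) (Real.exp_pos _).le) 2).trans ?_
    rw [mul_left_comm, mul_pow, hD, ← f5]
    exact mul_le_mul_of_nonneg_left f7 (sq_nonneg _)
  have g3 := g1.const_mul ((∑ p, D p ^ 2) * Real.exp (9 / c))
  refine (integral_mono_of_nonneg (Eventually.of_forall fun y => by positivity) g3.integrableOn
    ((ae_restrict_iff' measurableSet_closedBall).2 (Eventually.of_forall fun y hy => ?_))).trans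
    ((setIntegral_le_integral g3 (Eventually.of_forall fun y => by positivity)).trans
      (le_of_eq ?_))
  · refine (Finset.sum_le_sum fun p _ => key y hy p).trans (le_of_eq ?_)
    rw [← Finset.sum_mul, ← mul_assoc]
  · rw [integral_const_mul, g2, Real.sqrt_mul hc.le, mul_inv, mul_pow]
    ring

end Vale.Agent.P292E
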