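import Vale.Agent.P292E.CDefs

/-! The phase of the peak functions. -/

set_option maxSynthPendingDepth 3

open scoped ContDiff Topology ComplexConjugate
open Set Filter MeasureTheory Metric

noncomputable section

namespace Vale.Agent.P292E

variable {N : ℕ}

variable {J : V N → V N →L[ℝ] V N} {A : V N → V N →L[ℝ] ℝ} {B : Set (V N)} {x₀ : V N}
  {ψ : V N → ℂ} {c : ℝ}

theorem pkPsi_def (G : V N →L[ℝ] V N →L[ℝ] ℝ) (h : ∀ v, v ≠ 0 → G v v < 0) :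
    ∃ c : ℝ, 0 < c ∧ (∀ z, G z z ≤ -c * ‖z‖ ^ 2) ∧ ∀ z, -c⁻¹ * ‖z‖ ^ 2 ≤ G z z := by
  have hc : Continuous fun z : V N => -G z z := by fun_prop
  obtain ⟨m, hm, h1⟩ := (isCompact_sphere (0 : V N) 1).exists_forall_le' (a := 0) hc.continuousOn
    fun z hz => neg_pos.2 (h z (ne_zero_of_mem_unit_sphere ⟨z, hz⟩))
  have hG := norm_nonneg G
  have h2 : 0 < (‖G‖ + 1)⁻¹ := by positivity
  refine ⟨min m (‖G‖ + 1)⁻¹, lt_min hm h2, fun z => ?_, fun z => ?_⟩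
  · by_cases hz : z = 0
    · simp [hz]
    have hn := norm_pos_iff.2 hz
    have h3 := h1 (‖z‖⁻¹ • z) (by simp [norm_smul, hn.ne'])
    simp only [map_smul, smul_apply, smul_eq_mul] at h3
    have h4 := mul_le_mul_of_nonneg_right ((min_le_left m (‖G‖ + 1)⁻¹).trans h3) (sq_nonneg ‖z‖)
    have h5 : -(‖z‖⁻¹ * (‖z‖⁻¹ * G z z)) * ‖z‖ ^ 2 = -G z z := by field_simp
    linarith
  · have h3 := G.le_opNorm₂ z z
    have h4 : ‖G‖ + 1 ≤ (min m (‖G‖ + 1)⁻¹)⁻¹ := by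
      rw [le_inv_comm₀ (by positivity) (lt_min hm h2)]
      exact min_le_right _ _
    have h5 := mul_le_mul_of_nonneg_right h4 (sq_nonneg ‖z‖)
    have h6 := neg_abs_le (G z z)
    rw [Real.norm_eq_abs] at h3
    nlinarith [sq_nonneg ‖z‖]

theorem Geo.exists_psi (h : Geo J A B) (hx : x₀ ∈ B) : ∃ ψ c, Psi J A x₀ ψ c := by
  obtain ⟨G, hG⟩ : ∃ G : V N →L[ℝ] V N →L[ℝ] ℝ, ∀ z w, G z w = 1 / 4 * cur A x₀ z (J x₀ w) :=
    ⟨(1 / 4 : ℝ) • (fderiv ℝ A x₀ - (fderiv ℝ A x₀).flip).bilinearComp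
      (ContinuousLinearMap.id ℝ _) (J x₀), fun z w => by simp [cur]⟩
  obtain ⟨Φ, hΦ⟩ : ∃ Φ : (V N →L[ℝ] ℝ) →L[ℝ] V N →L[ℝ] ℂ, ∀ a v, Φ a v = Complex.I * a v :=
    ⟨ContinuousLinearMap.compL ℝ (V N) ℝ ℂ (Complex.I • Complex.ofRealCLM), fun a v => by simp⟩
  obtain ⟨Q, hQ⟩ : ∃ Q : V N →L[ℝ] V N →L[ℝ] ℂ, ∀ z w,
      Q z w = -(1 / 2) * (Complex.I * fderiv ℝ A x₀ z w) + G z w :=
    ⟨(-(1 / 2) : ℝ) • Φ.comp (fderiv ℝ A x₀) +
      (ContinuousLinearMap.compL ℝ (V N) ℝ ℂ Complex.ofRealCLM).comp G, fun z w => by simp [hΦ]⟩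
  obtain ⟨c, hc, h1, h2⟩ := pkPsi_def G fun v hv => by
    rw [hG]
    linarith [h.Fneg x₀ hx v hv]
  obtain ⟨ψ, hψ⟩ : ∃ ψ : V N → ℂ, ψ = fun y => -Φ (A x₀) (y - x₀) + Q (y - x₀) (y - x₀) := ⟨_, rfl⟩
  have hre : ∀ y, (ψ y).re = G (y - x₀) (y - x₀) := fun y => by simp [hψ, hΦ, hQ]
  have hd : fderiv ℝ ψ = fun y => -Φ (A x₀) + (Q (y - x₀) + Q.flip (y - x₀)) := by
    funext y
    have a1 : HasFDerivAt (fun y : V N => y - x₀) (ContinuousLinearMap.id ℝ _) y :=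
      (hasFDerivAt_id y).sub_const x₀
    have a2 := ((Φ (A x₀)).hasFDerivAt.comp y a1).neg.add
      ((Q.hasFDerivAt.comp y a1).clm_apply a1)
    rw [hψ]
    refine a2.fderiv.trans ?_
    ext v
    simp
  have hA := ((h.A_sm.contDiffAt (h.opn.mem_nhds hx)).differentiableAt (by simp)).hasFDerivAt
  have hJ := ((h.J_sm.contDiffAt (h.opn.mem_nhds hx)).differentiableAt (by simp)).hasFDerivAt
  refine ⟨ψ, c, hc, by rw [hψ]; fun_prop, fun y => by rw [hre]; exact h1 _,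
    fun y => by rw [hre]; exact h2 _, by simp [hψ], fun v => by simp [hd, hΦ], fun p n hn => ?_⟩
  obtain ⟨θ, hθ⟩ : ∃ θ : V N → V N →L[ℝ] ℂ,
      θ = fun y => -Φ (A x₀) + (Q (y - x₀) + Q.flip (y - x₀)) + Φ (A y) := ⟨_, rfl⟩
  have h0 : θ x₀ = 0 := by simp [hθ]
  have hE : (fun y => Ef J A ψ y (ee p)) =
      fun y => θ y (ee p) + Complex.I * θ y (J y (ee p)) := by
    funext y
    simp only [Ef, hd, hθ, add_apply, hΦ]
    linear_combination (-(A y (J y (ee p)) : ℂ)) * Complex.I_mul_I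
  rw [hE, ← norm_eq_zero]
  interval_cases n
  · rw [norm_iteratedFDeriv_zero, h0]
    simp
  have a1 : HasFDerivAt (fun y : V N => y - x₀) (ContinuousLinearMap.id ℝ _) x₀ :=
    (hasFDerivAt_id x₀).sub_const x₀
  have a2 : HasFDerivAt θ (Q + Q.flip + Φ.comp (fderiv ℝ A x₀)) x₀ := by
    have a3 := (((Q.hasFDerivAt.comp x₀ a1).add (Q.flip.hasFDerivAt.comp x₀ a1)).const_add
      (-Φ (A x₀))).add (Φ.hasFDerivAt.comp x₀ hA)
    rw [hθ]
    exact a3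
  have a3 := (a2.clm_apply (hasFDerivAt_const (ee p) x₀)).add
    ((a2.clm_apply (hJ.clm_apply (hasFDerivAt_const (ee p) x₀))).const_mul Complex.I)
  rw [norm_iteratedFDeriv_one, norm_eq_zero]
  refine a3.fderiv.trans ?_
  ext z
  have b1 := h.F11 x₀ hx (ee p) (J x₀ z)
  have b2 := h.F11 x₀ hx (ee p) z
  rw [h.J_sq x₀ hx] at b1
  simp only [cur, map_neg, neg_apply] at b1 b2
  have b3 := congrArg Complex.ofReal b1
  have b4 := congrArg Complex.ofReal b2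
  push_cast at b3 b4
  simp [h0, hQ, hG, hΦ, cur, h.J_sq x₀ hx]
  linear_combination -(1 / 4) * b3 + Complex.I / 4 * b4 + ((fderiv ℝ A x₀ z (J x₀ (ee p)) : ℂ) -
    fderiv ℝ A x₀ (J x₀ (ee p)) z) / 2 * Complex.I_mul_I

theorem Ef_sm (h : Geo J A B) (hψ : ContDiff ℝ ∞ ψ) (v : V N) :
    ContDiffOn ℝ ∞ (fun y => Ef J A ψ y v) B := by
  have h1 := BdC_fderiv h.opn hψ.contDiffOn
  have h2 : ContDiffOn ℝ ∞ (fun y => J y v) B := h.J_sm.clm_apply contDiffOn_const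
  exact (((h1.clm_apply contDiffOn_const).add (contDiffOn_const.mul (h1.clm_apply h2))).add
    (contDiffOn_const.mul (Complex.ofRealCLM.contDiff.comp_contDiffOn
      (h.A_sm.clm_apply contDiffOn_const)))).sub
    (Complex.ofRealCLM.contDiff.comp_contDiffOn (h.A_sm.clm_apply h2))

theorem Dbv_exp (k : ℕ) {P : V N → ℂ} {y : V N} (hP : DifferentiableAt ℝ P y)
    (hψ : DifferentiableAt ℝ ψ y) (v : V N) :
    Dbv J A k (fun y => P y * Complex.exp (k * ψ y)) y v = Complex.exp (k * ψ y) *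
      (fderiv ℝ P y v + Complex.I * fderiv ℝ P y (J y v) + k * Ef J A ψ y v * P y) := by
  have h1 : fderiv ℝ (fun y => P y * Complex.exp (k * ψ y)) y = _ :=
    (hP.hasFDerivAt.mul (hψ.hasFDerivAt.const_mul (k : ℂ)).cexp).fderiv
  simp only [Dbv, Dv, Ef, h1, add_apply, smul_apply,
    smul_eq_mul]
  linear_combination (k * A y (J y v) * P y * Complex.exp (k * ψ y) : ℂ) * Complex.I_mul_I

end Vale.Agent.P292E
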